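import Mathlib

open Polynomial NumberField Module

namespace Vale.Agent.Lib.P007

/-- If `y^N` is divisible by the prime `q` in a free `ℤ`-algebra then `q` divides the trace of `y`. -/
lemma prime_dvd_trace_of_pow_dvd {R : Type*} [CommRing R]
    {ι : Type*} [Fintype ι] [DecidableEq ι] (b : Basis ι ℤ R) (q : ℕ) [Fact q.Prime]
    (y w : R) (N : ℕ) (hy : y ^ N = (q : R) * w) : (q : ℤ) ∣ Algebra.trace ℤ R y := by
  rw [Algebra.trace_eq_matrix_trace b]
  set A : Matrix ι ι ℤ := Algebra.leftMulMatrix b y with hA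
  have hpow : A ^ N = (q : ℤ) • Algebra.leftMulMatrix b w := by
    rw [hA, ← map_pow, hy, map_mul]
    have : Algebra.leftMulMatrix b (q : R) = (q : ℤ) • (1 : Matrix ι ι ℤ) := by
      rw [show (q : R) = (q : ℤ) • (1 : R) by simp [zsmul_eq_mul], map_smul, map_one]
    rw [this, smul_mul_assoc, one_mul]
  let φ := (Int.castRingHom (ZMod q)).mapMatrix (m := ι)
  have hnil : IsNilpotent (φ A) := by
    refine ⟨N, ?_⟩
    rw [← map_pow, hpow]
    ext i j
    simp only [φ, RingHom.mapMatrix_apply, Matrix.map_apply, Matrix.smul_apply, smul_eq_mul]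
    simp
  have htr := Matrix.isNilpotent_trace_of_isNilpotent hnil
  have h0 : (φ A).trace = 0 := htr.eq_zero
  have h1 : (φ A).trace = ((A.trace : ℤ) : ZMod q) := by
    simp only [φ, Matrix.trace, RingHom.mapMatrix_apply, Matrix.diag, Matrix.map_apply]
    simp
  rw [h1] at h0
  exact (ZMod.intCast_zmod_eq_zero_iff_dvd _ q).1 h0

/-- If the prime `q` does not divide the discriminant of `K`, then `𝓞 K / q` is reduced. -/
lemma dvd_of_pow_dvd_of_not_dvd_discr (K : Type*) [Field K] [NumberField K] (q : ℕ) [Fact q.Prime]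
    (hq : ¬ (q : ℤ) ∣ discr K) (x w : 𝓞 K) (N : ℕ) (h : x ^ N = (q : 𝓞 K) * w) :
    ∃ z : 𝓞 K, x = (q : 𝓞 K) * z := by
  classical
  let b := RingOfIntegers.basis K
  let M := Algebra.traceMatrix ℤ b
  have hdet : (M.det : ℤ) = discr K := rfl
  let φ := (Int.castRingHom (ZMod q)).mapMatrix (m := Free.ChooseBasisIndex ℤ (𝓞 K))
  have hdet' : (φ M).det ≠ 0 := by
    have : (φ M).det = ((M.det : ℤ) : ZMod q) := by
      simp only [φ]
      exact (RingHom.map_det (Int.castRingHom (ZMod q)) M).symm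
    rw [this, hdet]
    intro h0
    exact hq ((ZMod.intCast_zmod_eq_zero_iff_dvd _ q).1 h0)
  let c : Free.ChooseBasisIndex ℤ (𝓞 K) → ℤ := b.repr x
  have hx : x = ∑ i, c i • b i := (b.sum_repr x).symm
  have htr : ∀ j, (q : ℤ) ∣ ∑ i, c i * M i j := by
    intro j
    have h1 : (x * b j) ^ N = (q : 𝓞 K) * (w * b j ^ N) := by
      rw [mul_pow, h, mul_assoc]
    have h2 := prime_dvd_trace_of_pow_dvd b q (x * b j) _ N h1
    have h3 : Algebra.trace ℤ (𝓞 K) (x * b j) = ∑ i, c i * M i j := by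
      conv_lhs => rw [hx]
      rw [Finset.sum_mul, map_sum]
      refine Finset.sum_congr rfl fun i _ => ?_
      rw [smul_mul_assoc, map_smul, smul_eq_mul]
      rfl
    rwa [h3] at h2
  let cbar : Free.ChooseBasisIndex ℤ (𝓞 K) → ZMod q := fun i => (c i : ZMod q)
  have hvec : Matrix.vecMul cbar (φ M) = 0 := by
    ext j
    have := (ZMod.intCast_zmod_eq_zero_iff_dvd _ q).2 (htr j)
    simpa [Matrix.vecMul, dotProduct, cbar, φ] using this
  have hc0 : cbar = 0 := Matrix.eq_zero_of_vecMul_eq_zero hdet' hvec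
  have hdiv : ∀ i, (q : ℤ) ∣ c i := fun i =>
    (ZMod.intCast_zmod_eq_zero_iff_dvd _ q).1 (congrFun hc0 i)
  choose d hd using hdiv
  refine ⟨∑ i, d i • b i, ?_⟩
  rw [hx, Finset.mul_sum]
  refine Finset.sum_congr rfl fun i _ => ?_
  rw [hd i, mul_smul_comm]
  rw [mul_smul]
  simp only [zsmul_eq_mul]
  push_cast
  ring

end Vale.Agent.Lib.P007
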