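import Mathlib

open Polynomial

namespace Vale.Agent.Lib.P007

/-- A monic polynomial of degree `n` with `n` distinct roots is the product of its linear factors. -/
lemma prod_eq_of_roots {F : Type*} [Field F] (p : F[X]) (hp : p.Monic) (n : ℕ) (hd : p.natDegree = n)
    (r : Fin n → F) (hr : Function.Injective r) (hroot : ∀ j, p.eval (r j) = 0) :
    p = ∏ j, (X - C (r j)) := by
  classical
  have hq : (∏ j, (X - C (r j)) : F[X]).Monic := monic_prod_of_monic _ _ fun j _ => monic_X_sub_C _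
  have hqd : (∏ j, (X - C (r j)) : F[X]).natDegree = n := by
    rw [natDegree_prod_of_monic _ _ fun j _ => monic_X_sub_C _ ]
    simp
  by_cases hn : n = 0
  · subst hn
    have h1 : p = 1 := (Polynomial.Monic.natDegree_eq_zero hp).1 hd
    simp [h1]
  refine Polynomial.eq_of_degree_sub_lt_of_eval_finset_eq (Finset.univ.image r) ?_ ?_
  · rw [Finset.card_image_of_injective _ hr, Finset.card_univ, Fintype.card_fin]
    have hpos : 0 < n := Nat.pos_of_ne_zero hn
    have := degree_sub_lt_left (p := p) (q := ∏ j, (X - C (r j)))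
      (by rw [degree_eq_natDegree hp.ne_zero, degree_eq_natDegree hq.ne_zero, hd, hqd])
      hp.ne_zero (by rw [hp.leadingCoeff, hq.leadingCoeff])
    rwa [degree_eq_natDegree hp.ne_zero, hd] at this
  · intro x hx
    obtain ⟨j, -, rfl⟩ := Finset.mem_image.1 hx
    rw [hroot j, eval_prod]
    symm
    exact Finset.prod_eq_zero (Finset.mem_univ j) (by simp)

/-- Step 1: the field `ℚ[x]/(f)` as a number field with the universal property of a root. -/
theorem exists_field_of_irreducible (f : ℤ[X]) (hmon : f.Monic) (hirr : Irreducible f) (n : ℕ)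
    (hdeg : f.natDegree = n) :
    ∃ (K : Type) (_ : Field K) (_ : NumberField K) (θ : K),
      Module.finrank ℚ K = n ∧ aeval θ f = 0 ∧
      (∀ (S : Type) [Ring S] [Algebra ℚ S] (φ₁ φ₂ : K →+* S), φ₁ θ = φ₂ θ → φ₁ = φ₂) ∧
      (∀ (S : Type) [Field S] [Algebra ℚ S] (x : S), aeval x f = 0 → ∃ φ : K →+* S, φ θ = x) := by
  classical
  set p : ℚ[X] := f.map (Int.castRingHom ℚ) with hp
  have hpirr : Irreducible p :=
    (IsPrimitive.Int.irreducible_iff_irreducible_map_cast hmon.isPrimitive).1 hirr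
  haveI : Fact (Irreducible p) := ⟨hpirr⟩
  have hpne : p ≠ 0 := hpirr.ne_zero
  have hpdeg : p.natDegree = n := by
    rw [hp, hmon.natDegree_map, hdeg]
  let pb := AdjoinRoot.powerBasis hpne
  have hfin : FiniteDimensional ℚ (AdjoinRoot p) := by
    convert pb.finite using 1
  have hchar : CharZero (AdjoinRoot p) :=
    charZero_of_injective_algebraMap (algebraMap ℚ (AdjoinRoot p)).injective
  refine ⟨AdjoinRoot p, AdjoinRoot.instField, ⟨⟩, AdjoinRoot.root p, ?_, ?_, ?_, ?_⟩
  · have := pb.finrank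
    rw [AdjoinRoot.powerBasis_dim, hpdeg] at this
    convert this using 1
  · have h1 := AdjoinRoot.eval₂_root p
    rw [hp, eval₂_map] at h1
    rw [aeval_def]
    exact (congrArg (fun ψ : ℤ →+* AdjoinRoot p => eval₂ ψ (AdjoinRoot.root p) f)
      (RingHom.ext_int _ _)).trans h1
  · intro S _ _ φ₁ φ₂ h
    have h1 : φ₁.comp (AdjoinRoot.mk p) = φ₂.comp (AdjoinRoot.mk p) := by
      refine Polynomial.ringHom_ext' (RingHom.ext_rat _ _) ?_
      simpa using h
    refine RingHom.ext fun x => ?_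
    obtain ⟨g, rfl⟩ := Ideal.Quotient.mk_surjective x
    exact congrFun (congrArg DFunLike.coe h1) g
  · intro S _ _ x hx
    refine ⟨AdjoinRoot.lift (algebraMap ℚ S) x ?_, AdjoinRoot.lift_root _⟩
    rw [hp, eval₂_map]
    rw [aeval_def] at hx
    have h2 : algebraMap ℤ S = (algebraMap ℚ S).comp (Int.castRingHom ℚ) :=
      RingHom.ext_int _ _
    rw [← h2]
    exact hx

/-- The number field generated by a root of a monic irreducible integral polynomial with `n`
distinct real roots, with its ordered real embeddings. -/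
theorem exists_field_of_real_roots (f : ℤ[X]) (hmon : f.Monic) (hirr : Irreducible f) (n : ℕ)
    (hdeg : f.natDegree = n) (r : Fin n → ℝ) (hr : Function.Injective r)
    (hroot : ∀ j, aeval (r j) f = 0) :
    ∃ (K : Type) (_ : Field K) (_ : NumberField K) (_ : NumberField.IsTotallyReal K)
      (σ : Fin n ≃ (K →+* ℝ)) (θ : K),
      Module.finrank ℚ K = n ∧ aeval θ f = 0 ∧ (∀ j, σ j θ = r j) ∧
        (∀ y : K, IsIntegral ℤ y → ∃ N : ℤ, (N : ℝ) = ∏ j, σ j y) := by
  classical
  obtain ⟨K, _, _, θ, hfr, hθ, hext, hlift⟩ := exists_field_of_irreducible f hmon hirr n hdeg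
  -- real and complex factorizations
  have hfR : f.map (algebraMap ℤ ℝ) = ∏ j, (X - C (r j)) := by
    refine prod_eq_of_roots _ (hmon.map _) n ?_ r hr ?_
    · rw [hmon.natDegree_map, hdeg]
    · intro j
      have := hroot j
      rw [aeval_def, ← eval_map] at this
      exact this
  let rc : Fin n → ℂ := fun j => (r j : ℂ)
  have hfC : f.map (algebraMap ℤ ℂ) = ∏ j, (X - C (rc j)) := by
    have h1 : f.map (algebraMap ℤ ℂ) = (f.map (algebraMap ℤ ℝ)).map (algebraMap ℝ ℂ) := by
      rw [Polynomial.map_map]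
      congr 1
    rw [h1, hfR, Polynomial.map_prod]
    simp [rc]
  have hroot_real : ∀ x : ℝ, aeval x f = 0 → ∃ j, x = r j := by
    intro x hx
    rw [aeval_def, ← eval_map, hfR, eval_prod, Finset.prod_eq_zero_iff] at hx
    obtain ⟨j, -, hj⟩ := hx
    exact ⟨j, by simpa [sub_eq_zero] using hj⟩
  have hroot_cx : ∀ x : ℂ, aeval x f = 0 → ∃ j, x = rc j := by
    intro x hx
    rw [aeval_def, ← eval_map, hfC, eval_prod, Finset.prod_eq_zero_iff] at hx
    obtain ⟨j, -, hj⟩ := hx
    exact ⟨j, by simpa [sub_eq_zero] using hj⟩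
  have hmapf : ∀ {S : Type} [CommRing S] [Algebra ℤ S] (φ : K →+* S), aeval (φ θ) f = 0 := by
    intro S _ _ φ
    have h1 : eval₂ (algebraMap ℤ S) (φ θ) f = φ (eval₂ (algebraMap ℤ K) θ f) := by
      rw [Polynomial.hom_eval₂]
      congr 1
      exact RingHom.ext_int _ _
    rw [aeval_def, h1]
    rw [aeval_def] at hθ
    rw [hθ, map_zero]
  -- totally real
  have htr : NumberField.IsTotallyReal K := by
    refine ⟨fun v => NumberField.InfinitePlace.isReal_iff.2 ?_⟩
    refine NumberField.ComplexEmbedding.isReal_iff.2 ?_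
    refine hext ℂ _ _ ?_
    obtain ⟨j, hj⟩ := hroot_cx _ (hmapf v.embedding)
    simp only [NumberField.ComplexEmbedding.conjugate_coe_eq, hj, rc]
    simp
  -- embeddings
  have hσex : ∀ j, ∃ φ : K →+* ℝ, φ θ = r j := fun j => hlift ℝ (r j) (hroot j)
  choose σ₀ hσ₀ using hσex
  have hbij : Function.Bijective σ₀ := by
    refine ⟨fun j j' h => hr ?_, fun τ => ?_⟩
    · rw [← hσ₀, ← hσ₀, h]
    · obtain ⟨j, hj⟩ := hroot_real _ (hmapf τ)
      exact ⟨j, hext ℝ _ _ (by rw [hσ₀, hj])⟩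
  let σ : Fin n ≃ (K →+* ℝ) := Equiv.ofBijective σ₀ hbij
  have hσ : ∀ j x, σ j x = σ₀ j x := fun _ _ => rfl
  -- complex embeddings, for the norm
  let e₀ : Fin n → (K →ₐ[ℚ] ℂ) := fun j => (Complex.ofRealHom.comp (σ₀ j)).toRatAlgHom
  have he₀ : ∀ j x, e₀ j x = ((σ₀ j x : ℝ) : ℂ) := fun _ _ => rfl
  have hebij : Function.Bijective e₀ := by
    refine ⟨fun j j' h => hr ?_, fun τ => ?_⟩
    · have := congrArg (fun g : K →ₐ[ℚ] ℂ => g θ) h
      simp only [he₀, hσ₀] at this
      exact Complex.ofReal_injective this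
    · obtain ⟨j, hj⟩ := hroot_cx _ (hmapf τ.toRingHom)
      refine ⟨j, ?_⟩
      have h3 : (e₀ j).toRingHom = τ.toRingHom := by
        refine hext ℂ _ _ ?_
        rw [hj]
        show e₀ j θ = rc j
        rw [he₀, hσ₀]
      ext x
      exact congrFun (congrArg DFunLike.coe h3) x
  let e : Fin n ≃ (K →ₐ[ℚ] ℂ) := Equiv.ofBijective e₀ hebij
  refine ⟨K, inferInstance, inferInstance, htr, σ, θ, hfr, hθ, fun j => hσ₀ j, ?_⟩
  intro y hy
  have hnormint : IsIntegral ℤ (Algebra.norm ℚ y) := Algebra.isIntegral_norm ℚ hy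
  obtain ⟨N, hN⟩ := IsIntegrallyClosed.isIntegral_iff.1 hnormint
  refine ⟨N, ?_⟩
  have h1 := Algebra.norm_eq_prod_embeddings ℚ ℂ y
  rw [← hN] at h1
  have h2 : (∏ τ : K →ₐ[ℚ] ℂ, τ y) = ∏ j, e j y := (Equiv.prod_comp e fun τ => τ y).symm
  have h3 : (∏ j, e j y) = (((∏ j, σ j y) : ℝ) : ℂ) := by
    push_cast
    rfl
  rw [h2, h3] at h1
  have h4 : ((N : ℝ) : ℂ) = (((∏ j, σ j y) : ℝ) : ℂ) := by
    rw [← h1]
    simp
  exact Complex.ofReal_injective h4

end Vale.Agent.Lib.P007
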