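import Vale.Agent.Lib.P007.Roots
import Vale.Agent.Lib.P007.FieldLemma
import Vale.Agent.Lib.P007.Disc

open Polynomial NumberField

namespace Vale.Agent.Lib.P007

/-- The fixed diagonal entries: the value of `α` at the `j`-th embedding. -/
noncomputable def TT (a b : ℕ) (j : Fin (a * b)) : ℝ :=
  yL a (finProdFinEquiv.symm j).1

lemma TT_nonconstant (a b : ℕ) (ha : 2 ≤ a) (hb : 2 ≤ b) :
    ∃ i j, TT a b i ≠ TT a b j := by
  let l0 : Fin a := ⟨0, by omega⟩
  let l1 : Fin a := ⟨1, by omega⟩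
  let k0 : Fin b := ⟨0, by omega⟩
  refine ⟨finProdFinEquiv (l0, k0), finProdFinEquiv (l1, k0), ?_⟩
  simp only [TT, Equiv.symm_apply_apply]
  intro h
  have := yL_inj a (by omega) _ _ l0.2 l1.2 h
  simp [l0, l1] at this

/-- Ring homomorphisms commute with evaluation of integer polynomials. -/
lemma hom_aeval {A B : Type*} [CommRing A] [CommRing B] (τ : A →+* B) (x : A) (p : ℤ[X]) :
    τ (aeval x p) = aeval (τ x) p := by
  rw [aeval_def, aeval_def, Polynomial.hom_eval₂]
  congr 1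
  exact RingHom.ext_int _ _

theorem exists_field (a b : ℕ) (ha : 2 ≤ a) (hb : 2 ≤ b) (N : ℕ) :
    ∃ (K : Type) (_ : Field K) (_ : NumberField K) (_ : NumberField.IsTotallyReal K)
      (σ : Fin (a * b) ≃ (K →+* ℝ)) (α : K),
      Module.finrank ℚ K = a * b ∧ IsIntegral ℤ α ∧ (∀ j, σ j α = TT a b j) ∧
        (N : ℤ) ≤ |NumberField.discr K| := by
  classical
  obtain ⟨a', rfl⟩ : ∃ a', a = a' + 2 := ⟨a - 2, by omega⟩
  obtain ⟨b', rfl⟩ : ∃ b', b = b' + 1 := ⟨b - 1, by omega⟩
  set a := a' + 2 with ha'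
  set b := b' + 1 with hb'
  set G : ℤ[X] := gP a with hG
  have hGm : G.Monic := gP_monic (a' + 1)
  have hGd : G.natDegree = a := gP_natDegree (a' + 1)
  have hGirr : Irreducible G := gP_irreducible a'
  obtain ⟨q, c, hq, hqN, hq2, hc2, hqc, hqc2⟩ :=
    exists_data G hGm hGirr (by rw [hGd]; omega) (gP_eval_zero_ne a') N
  haveI : Fact q.Prime := ⟨hq⟩
  set M' : ℤ := 2 * (|c| + 4) with hM'
  set M : ℤ := q * M' with hM
  have hcabs : 0 ≤ |c| := abs_nonneg c
  have hqpos : (1 : ℤ) ≤ q := by exact_mod_cast hq.one_lt.le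
  have hMge : |c| + 4 ≤ M := by
    have : (|c| + 4) * 1 ≤ (|c| + 4) * (2 * q) := by
      apply mul_le_mul_of_nonneg_left _ (by omega)
      omega
    rw [hM, hM']
    nlinarith
  have hM2 : (2 : ℤ) ∣ M := by
    rw [hM, hM']
    exact ⟨q * (|c| + 4), by ring⟩
  set h : ℤ[X] := hP M c b with hh
  obtain ⟨W, hW⟩ := VP_form (M ^ 2) b'
  have hVPm := VP_natDegree_monic (M ^ 2) b'
  have hhform : h = X ^ b + C (M ^ 2) * W + C c := by rw [hh, hP, hW]
  have hhm : h.Monic := by
    refine hVPm.1.add_of_left ?_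
    rw [degree_eq_natDegree hVPm.1.ne_zero, hVPm.2]
    refine lt_of_le_of_lt degree_C_le ?_
    exact_mod_cast Nat.succ_pos b'
  have hhd : h.natDegree = b := by
    rw [hh, hP, natDegree_add_C]
    exact hVPm.2
  set f : ℤ[X] := G.comp h with hf
  have hfm : f.Monic := hGm.comp hhm (by rw [hhd]; omega)
  have hfd : f.natDegree = a * b := by rw [hf, natDegree_comp, hGd, hhd]
  -- mod 2
  have hhmod : h.map (Int.castRingHom (ZMod 2)) = X ^ b := by
    obtain ⟨e, he⟩ := hM2
    obtain ⟨e', he'⟩ := hc2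
    have h1 : (Int.castRingHom (ZMod 2)) (M ^ 2) = 0 := by
      rw [he]
      simp only [map_pow, map_mul]
      have : (Int.castRingHom (ZMod 2)) 2 = 0 := by decide
      rw [this]
      simp
    have h2 : (Int.castRingHom (ZMod 2)) c = 0 := by
      rw [he']
      simp only [map_mul]
      have : (Int.castRingHom (ZMod 2)) 2 = 0 := by decide
      rw [this]
      simp
    rw [hhform]
    simp only [Polynomial.map_add, Polynomial.map_mul, Polynomial.map_pow, map_X, map_C, h1, h2,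
      map_zero, zero_mul, add_zero]
  have hfmod : f.map (Int.castRingHom (ZMod 2)) = X ^ (a * b) := by
    rw [hf, Polynomial.map_comp, hhmod, hG, gP_map_two (a' + 1), X_pow_comp, pow_mul']
  have hheval0 : h.eval 0 = M ^ 2 * W.eval 0 + c := by
    rw [hhform]
    simp [hb']
  have hfeval0 : f.eval 0 = G.eval (h.eval 0) := by rw [hf, eval_comp]
  have hf4 : ¬ (4 : ℤ) ∣ f.eval 0 := by
    rw [hfeval0]
    refine gP_eval_even a' _ ?_
    rw [hheval0]
    exact dvd_add (Dvd.dvd.mul_right (Dvd.dvd.pow hM2 (by norm_num)) _) hc2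
  have hfirr : Irreducible f :=
    irreducible_of_mod_two f hfm (a * b) (by positivity) hfd hfmod hf4
  -- the real roots
  let yF : Fin a → ℝ := fun l => yL a l
  have hyF : Function.Injective yF := by
    intro l l' hll
    exact Fin.ext (yL_inj a (by omega) _ _ l.2 l'.2 hll)
  have hyabs : ∀ l, |yF l| ≤ 4 := fun l => abs_yL_le a l
  let rP : Fin a × Fin b → ℝ := fun p => xP M c b (yF p.1) p.2
  let r : Fin (a * b) → ℝ := fun j => rP (finProdFinEquiv.symm j)
  have hhr : ∀ p, aeval (rP p) h = yF p.1 := fun p =>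
    hP_eval_xP M c b _ hMge (by omega) (hyabs p.1) p.2
  have hrinj : Function.Injective r := by
    intro j j' hjj
    apply finProdFinEquiv.symm.injective
    set p := finProdFinEquiv.symm j
    set p' := finProdFinEquiv.symm j'
    have hpp : rP p = rP p' := hjj
    have h1 : yF p.1 = yF p'.1 := by rw [← hhr, ← hhr, hpp]
    have h2 : p.1 = p'.1 := hyF h1
    have h3 : xP M c b (yF p.1) p.2 = xP M c b (yF p.1) p'.2 := by
      have : rP p = xP M c b (yF p.1) p.2 := rfl
      rw [← this, hpp, h2]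
    have h4 := xP_inj M c b _ hMge (by omega) (hyabs p.1) _ _ p.2.2 p'.2.2 h3
    exact Prod.ext h2 (Fin.ext h4)
  have hGroot : ∀ l, aeval (yF l) G = 0 := fun l => yL_root a (by omega) l
  have hrroot : ∀ j, aeval (r j) f = 0 := by
    intro j
    rw [hf, aeval_comp]
    show aeval (aeval (rP (finProdFinEquiv.symm j)) h) G = 0
    rw [hhr]
    exact hGroot _
  obtain ⟨K, _, _, htr, σ, θ, hfr, hθ, hσ, hnorm⟩ :=
    exists_field_of_real_roots f hfm hfirr (a * b) hfd r hrinj hrroot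
  have hθint : IsIntegral ℤ θ := ⟨f, hfm, by rwa [aeval_def] at hθ⟩
  let t : 𝓞 K := ⟨θ, hθint⟩
  let ι := algebraMap (𝓞 K) K
  have hιt : ι t = θ := rfl
  have hιinj : Function.Injective ι := RingOfIntegers.coe_injective
  let A : 𝓞 K := aeval t h
  have hιA : ι A = aeval θ h := by rw [← hιt]; exact hom_aeval ι t h
  have hσA : ∀ j, σ j (ι A) = TT a b j := by
    intro j
    rw [hιA, hom_aeval, hσ]
    exact hhr _
  refine ⟨K, inferInstance, inferInstance, htr, σ, ι A, hfr, A.2, hσA, ?_⟩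
  -- the discriminant
  have hdvd : (q : ℤ) ∣ NumberField.discr K := by
    by_contra hnd
    have hAform : A = t ^ b + ((M ^ 2 : ℤ) : 𝓞 K) * aeval t W + (c : 𝓞 K) := by
      simp only [A, hhform, map_add, map_mul, map_pow, aeval_X, aeval_C]
      simp
    have hf0 : aeval t f = 0 := by
      apply hιinj
      rw [hom_aeval, hιt, hθ, map_zero]
    have hGA : aeval A G = 0 := by
      have : aeval t f = aeval A G := by rw [hf, aeval_comp]
      rwa [← this]
    obtain ⟨g1, hg1⟩ := X_sub_C_dvd_sub_C_eval (a := c) (p := G)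
    obtain ⟨gc, hgc⟩ := hqc
    let u : 𝓞 K := aeval A g1
    have hAu : (A - (c : 𝓞 K)) * u = -((q : 𝓞 K) * (gc : 𝓞 K)) := by
      have h1 := congrArg (aeval A) hg1
      simp only [map_sub, aeval_C, map_mul, aeval_X, hGA, hgc] at h1
      simp only [zero_sub, eq_intCast, Int.cast_natCast] at h1
      rw [← h1]
    obtain ⟨hbpos⟩ : 0 < b ∧ True := ⟨by omega, trivial⟩
    have hpowx : (t * u) ^ b = (q : 𝓞 K) *
        (-(gc : 𝓞 K) * u ^ b' - (q : 𝓞 K) * (M' : 𝓞 K) ^ 2 * aeval t W * u ^ b) := by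
      have ht : t ^ b = A - (c : 𝓞 K) - ((M ^ 2 : ℤ) : 𝓞 K) * aeval t W := by
        rw [hAform]; ring
      have hMc : ((M ^ 2 : ℤ) : 𝓞 K) = (q : 𝓞 K) ^ 2 * (M' : 𝓞 K) ^ 2 := by
        rw [hM]; push_cast; ring
      calc (t * u) ^ b = t ^ b * u ^ b := mul_pow _ _ _
        _ = ((A - (c : 𝓞 K)) * u) * u ^ b' - ((M ^ 2 : ℤ) : 𝓞 K) * aeval t W * u ^ b := by
            rw [ht, hb']; ring
        _ = _ := by
            rw [hAu, hMc]; ring
    obtain ⟨z, hz⟩ := dvd_of_pow_dvd_of_not_dvd_discr K q hnd (t * u) _ b hpowx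
    have hqne : (q : 𝓞 K) ≠ 0 := by
      exact_mod_cast hq.ne_zero
    have hE : (A - (c : 𝓞 K)) * z = -(t * (gc : 𝓞 K)) := by
      apply mul_left_cancel₀ hqne
      calc (q : 𝓞 K) * ((A - (c : 𝓞 K)) * z) = (A - (c : 𝓞 K)) * ((q : 𝓞 K) * z) := by ring
        _ = (A - (c : 𝓞 K)) * (t * u) := by rw [hz]
        _ = ((A - (c : 𝓞 K)) * u) * t := by ring
        _ = _ := by rw [hAu]; ring
    -- apply the product of embeddings
    let n := a * b
    let P : 𝓞 K → ℝ := fun y => ∏ j, σ j (ι y)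
    have hPmul : ∀ y y', P (y * y') = P y * P y' := by
      intro y y'
      simp only [P, map_mul, Finset.prod_mul_distrib]
    obtain ⟨Nz, hNz⟩ := hnorm (ι z) z.2
    have hPz : P z = (Nz : ℝ) := hNz.symm
    have hPt : P t = (-1 : ℝ) ^ n * ((f.eval 0 : ℤ) : ℝ) := by
      have h1 : f.map (algebraMap ℤ ℝ) = ∏ j, (X - C (r j)) := by
        refine prod_eq_of_roots _ (hfm.map _) n ?_ r hrinj ?_
        · rw [hfm.natDegree_map, hfd]
        · intro j
          have := hrroot j
          rwa [aeval_def, ← eval_map] at this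
      have h2 := congrArg (eval 0) h1
      rw [eval_prod] at h2
      simp only [eval_sub, eval_X, eval_C, zero_sub, eval_map] at h2
      have h3 : (((f.eval 0 : ℤ) : ℝ)) = eval₂ (algebraMap ℤ ℝ) 0 f := by
        rw [eval₂_at_zero, coeff_zero_eq_eval_zero]
        simp
      rw [← h3, Finset.prod_neg, Finset.card_univ, Fintype.card_fin] at h2
      have h4 : P t = ∏ j, r j := by
        refine Finset.prod_congr rfl fun j _ => ?_
        rw [hιt, hσ]
      rw [h4, h2, ← mul_assoc, ← mul_pow]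
      simp
    have hPgc : P ((gc : 𝓞 K)) = (gc : ℝ) ^ n := by
      simp only [P, map_intCast]
      simp [n]
    have hPA : P (A - (c : 𝓞 K)) = ((-1 : ℝ) ^ a * ((G.eval c : ℤ) : ℝ)) ^ b := by
      have h1 : G.map (algebraMap ℤ ℝ) = ∏ l, (X - C (yF l)) := by
        refine prod_eq_of_roots _ (hGm.map _) a ?_ yF hyF ?_
        · rw [hGm.natDegree_map, hGd]
        · intro l
          have := hGroot l
          rwa [aeval_def, ← eval_map] at this
      have h2 := congrArg (eval (c : ℝ)) h1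
      rw [eval_prod] at h2
      simp only [eval_sub, eval_X, eval_C, eval_map] at h2
      have h3 : ((G.eval c : ℤ) : ℝ) = eval₂ (algebraMap ℤ ℝ) (c : ℝ) G := by
        rw [← eval_map, Polynomial.eval_intCast_map (algebraMap ℤ ℝ) G c]
        simp
      have h4 : ∏ l, (yF l - (c : ℝ)) = (-1 : ℝ) ^ a * ((G.eval c : ℤ) : ℝ) := by
        rw [h3, h2]
        have h6 : ∏ l, (yF l - (c : ℝ)) = ∏ l, -((c : ℝ) - yF l) :=
          Finset.prod_congr rfl fun l _ => by ring
        rw [h6, Finset.prod_neg, Finset.card_univ, Fintype.card_fin]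
      have h5 : P (A - (c : 𝓞 K)) = ∏ j : Fin (a * b), (TT a b j - (c : ℝ)) := by
        refine Finset.prod_congr rfl fun j _ => ?_
        rw [map_sub, map_sub, hσA]
        simp
      rw [h5, ← h4]
      have h7 : ∏ j : Fin (a * b), (TT a b j - (c : ℝ)) =
          ∏ p : Fin a × Fin b, (yF p.1 - (c : ℝ)) :=
        Equiv.prod_comp finProdFinEquiv.symm (fun p : Fin a × Fin b => yF p.1 - (c : ℝ))
      rw [h7, Fintype.prod_prod_type]
      simp only [Finset.prod_const, Finset.card_univ, Fintype.card_fin]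
      rw [Finset.prod_pow]
    -- the identity of integers
    have hReal : ((-1 : ℝ) ^ a * ((G.eval c : ℤ) : ℝ)) ^ b * (Nz : ℝ) =
        ((f.eval 0 : ℤ) : ℝ) * (gc : ℝ) ^ n := by
      have h1 := congrArg P hE
      rw [hPmul, hPA, hPz] at h1
      rw [h1]
      have h2 : P (-(t * (gc : 𝓞 K))) = (-1 : ℝ) ^ n * (P t * P (gc : 𝓞 K)) := by
        rw [← hPmul]
        simp only [P, map_neg, Finset.prod_neg, Finset.card_univ, Fintype.card_fin]
        rfl
      rw [h2, hPt, hPgc, ← mul_assoc, ← mul_assoc, ← mul_pow]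
      simp
    have hZ : ((-1 : ℤ) ^ a * G.eval c) ^ b * Nz = f.eval 0 * gc ^ n := by
      exact_mod_cast hReal
    have hqp : Prime (q : ℤ) := Nat.prime_iff_prime_int.1 hq
    have hqgc : ¬ (q : ℤ) ∣ gc := by
      rintro ⟨e, he⟩
      apply hqc2
      rw [hgc, he]
      exact ⟨e, by ring⟩
    have hdiv : (q : ℤ) ^ 2 ∣ f.eval 0 * gc ^ n := by
      rw [← hZ]
      refine Dvd.dvd.mul_right ?_ _
      refine (pow_dvd_pow _ hb).trans (pow_dvd_pow_of_dvd ?_ b)
      rw [hgc]
      exact ⟨(-1) ^ a * gc, by ring⟩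
    have hf0q : (q : ℤ) ^ 2 ∣ f.eval 0 :=
      hqp.pow_dvd_of_dvd_mul_right 2 (fun hh' => hqgc (hqp.dvd_of_dvd_pow hh')) hdiv
    have hdiff : (q : ℤ) ^ 2 ∣ f.eval 0 - G.eval c := by
      rw [hfeval0, hheval0]
      have h1 := Polynomial.sub_dvd_eval_sub (M ^ 2 * W.eval 0 + c) c G
      refine Dvd.dvd.trans ?_ h1
      rw [hM]
      exact ⟨M' ^ 2 * W.eval 0, by ring⟩
    apply hqc2
    have := dvd_sub hf0q hdiff
    simpa using this
  have hqle : (q : ℤ) ≤ |NumberField.discr K| := by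
    have h1 := Int.le_of_dvd (abs_pos.2 (NumberField.discr_ne_zero K)) ((dvd_abs _ _).2 hdvd)
    exact h1
  have : (N : ℤ) < q := by exact_mod_cast hqN
  omega

end Vale.Agent.Lib.P007
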