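import Vale.Agent.Lib.P007.Poly

open Polynomial

namespace Vale.Agent.Lib.P007

/-- The polynomial `g_a = V_a(X; 4) - 2`. -/
noncomputable def gP (a : ℕ) : ℤ[X] := VP ((2 : ℤ) ^ 2) a - 2

lemma gP_form (a : ℕ) : ∃ W : ℤ[X], gP (a + 1) = X ^ (a + 1) + C 4 * W - C 2 := by
  obtain ⟨W, hW⟩ := VP_form ((2 : ℤ) ^ 2) a
  refine ⟨W, ?_⟩
  rw [gP, hW]
  norm_num

lemma gP_monic (a : ℕ) : (gP (a + 1)).Monic := by
  obtain ⟨hm, hd⟩ := VP_natDegree_monic ((2 : ℤ) ^ 2) a
  refine hm.sub_of_left ?_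
  have h2 : (2 : ℤ[X]) = C 2 := rfl
  rw [degree_eq_natDegree hm.ne_zero, hd, h2, degree_C (by norm_num)]
  exact_mod_cast Nat.succ_pos a

lemma gP_natDegree (a : ℕ) : (gP (a + 1)).natDegree = a + 1 := by
  obtain ⟨hm, hd⟩ := VP_natDegree_monic ((2 : ℤ) ^ 2) a
  rw [gP, natDegree_sub_eq_left_of_natDegree_lt, hd]
  rw [hd]
  have h2 : (2 : ℤ[X]) = C 2 := rfl
  rw [h2, natDegree_C]
  omega

/-- General Eisenstein at `2`. -/
lemma irreducible_of_mod_two (f : ℤ[X]) (hm : f.Monic) (n : ℕ) (hn : 0 < n) (hd : f.natDegree = n)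
    (hmod : f.map (Int.castRingHom (ZMod 2)) = X ^ n) (h0 : ¬ (4 : ℤ) ∣ f.eval 0) :
    Irreducible f := by
  have hP : (Ideal.span {(2 : ℤ)}).IsPrime := by
    rw [Ideal.span_singleton_prime (by norm_num)]
    exact Int.prime_two
  refine irreducible_of_eisenstein_criterion hP ?_ ?_ ?_ ?_ hm.isPrimitive
  · rw [hm.leadingCoeff, Ideal.mem_span_singleton]
    decide
  · intro m hm'
    rw [Ideal.mem_span_singleton]
    have hm2 : m < n := by
      rw [degree_eq_natDegree hm.ne_zero, hd] at hm'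
      exact_mod_cast hm'
    have h1 := congrArg (fun p => coeff p m) hmod
    simp only [coeff_map, coeff_X_pow, if_neg hm2.ne] at h1
    exact (ZMod.intCast_zmod_eq_zero_iff_dvd _ 2).1 (by simpa using h1)
  · rw [degree_eq_natDegree hm.ne_zero, hd]
    exact_mod_cast hn
  · rw [Ideal.span_singleton_pow, Ideal.mem_span_singleton, coeff_zero_eq_eval_zero]
    simpa using h0

lemma gP_map_two (a : ℕ) : (gP (a + 1)).map (Int.castRingHom (ZMod 2)) = X ^ (a + 1) := by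
  obtain ⟨W, hW⟩ := gP_form a
  rw [hW]
  have h4 : (Int.castRingHom (ZMod 2)) 4 = 0 := by decide
  have h2 : (Int.castRingHom (ZMod 2)) 2 = 0 := by decide
  simp only [Polynomial.map_add, Polynomial.map_sub, Polynomial.map_mul, Polynomial.map_pow, map_X, map_C, h4, h2,
    map_zero, zero_mul, add_zero, sub_zero]

/-- The value of `g_a` at an even integer is not divisible by `4`. -/
lemma gP_eval_even (a : ℕ) (e : ℤ) (he : (2 : ℤ) ∣ e) : ¬ (4 : ℤ) ∣ (gP (a + 2)).eval e := by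
  obtain ⟨W, hW⟩ := gP_form (a + 1)
  rw [show a + 2 = a + 1 + 1 by ring, hW]
  simp only [eval_sub, eval_add, eval_mul, eval_pow, eval_X, eval_C]
  obtain ⟨e', rfl⟩ := he
  intro h
  have h1 : (4 : ℤ) ∣ (2 * e') ^ (a + 1 + 1) := by
    refine ⟨2 ^ a * e' ^ (a + 2), ?_⟩
    ring
  have h2 : (4 : ℤ) ∣ 2 := by
    have h3 := dvd_sub (dvd_add h1 (dvd_mul_right (4 : ℤ) (eval (2 * e') W))) h
    simp at h3
  norm_num at h2

lemma gP_eval_zero_ne (a : ℕ) : (gP (a + 2)).eval 0 ≠ 0 := by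
  intro h
  have := gP_eval_even a 0 (dvd_zero _)
  rw [h] at this
  exact this (dvd_zero _)

lemma gP_irreducible (a : ℕ) : Irreducible (gP (a + 2)) :=
  irreducible_of_mod_two _ (gP_monic (a + 1)) (a + 2) (by omega) (gP_natDegree (a + 1))
    (gP_map_two (a + 1)) (gP_eval_even a 0 (dvd_zero _))

/-- Integer Bezout for an irreducible polynomial and its derivative. -/
lemma exists_bezout (G : ℤ[X]) (hm : G.Monic) (hirr : Irreducible G) :
    ∃ (A B : ℤ[X]) (D : ℤ), D ≠ 0 ∧ A * G + B * derivative G = C D := by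
  have hG : Irreducible (G.map (Int.castRingHom ℚ)) :=
    (IsPrimitive.Int.irreducible_iff_irreducible_map_cast hm.isPrimitive).1 hirr
  obtain ⟨A₀, B₀, hAB⟩ := hG.separable
  obtain ⟨d₁, hd₁, hA⟩ := IsLocalization.integerNormalization_spec (nonZeroDivisors ℤ) A₀
  obtain ⟨d₂, hd₂, hB⟩ := IsLocalization.integerNormalization_spec (nonZeroDivisors ℤ) B₀
  set A₁ := IsLocalization.integerNormalization (nonZeroDivisors ℤ) A₀
  set B₁ := IsLocalization.integerNormalization (nonZeroDivisors ℤ) B₀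
  have hd₁0 : d₁ ≠ 0 := nonZeroDivisors.ne_zero hd₁
  have hd₂0 : d₂ ≠ 0 := nonZeroDivisors.ne_zero hd₂
  refine ⟨C d₂ * A₁, C d₁ * B₁, d₁ * d₂, mul_ne_zero hd₁0 hd₂0, ?_⟩
  refine Polynomial.map_injective (Int.castRingHom ℚ) Int.cast_injective ?_
  have hmapA : A₁.map (Int.castRingHom ℚ) = C (d₁ : ℚ) * A₀ := by
    have := hA
    rw [show algebraMap ℤ ℚ = Int.castRingHom ℚ from rfl] at this
    rw [this, zsmul_eq_mul]
    simp
  have hmapB : B₁.map (Int.castRingHom ℚ) = C (d₂ : ℚ) * B₀ := by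
    have := hB
    rw [show algebraMap ℤ ℚ = Int.castRingHom ℚ from rfl] at this
    rw [this, zsmul_eq_mul]
    simp
  have hc : ∀ d : ℤ, (Int.castRingHom ℚ) d = (d : ℚ) := fun _ => rfl
  simp only [Polynomial.map_add, Polynomial.map_mul, map_C, hmapA, hmapB, derivative_map, hc,
    Int.cast_mul, Polynomial.C_mul]
  have h1 : C (d₁ : ℚ) * C (d₂ : ℚ) = C (d₁ : ℚ) * C (d₂ : ℚ) *
      (A₀ * G.map (Int.castRingHom ℚ) + B₀ * derivative (G.map (Int.castRingHom ℚ))) := by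
    rw [hAB, mul_one]
  rw [h1, derivative_map]
  ring

/-- Schur's argument: a nonconstant integer polynomial has values divisible by large primes. -/
lemma exists_prime_dvd_eval (G : ℤ[X]) (hd : 0 < G.natDegree) (h0 : G.eval 0 ≠ 0) (N : ℕ) :
    ∃ (q : ℕ) (c : ℤ), q.Prime ∧ N < q ∧ (q : ℤ) ∣ G.eval c := by
  classical
  set G0 := G.eval 0 with hG0
  -- the finite set of bad points
  have hne : G * (G - C G0) * (G + C G0) ≠ 0 := by
    have h1 : G ≠ 0 := fun h => by simp [h] at hd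
    have h2 : G - C G0 ≠ 0 := fun h => by
      rw [sub_eq_zero] at h
      rw [h, natDegree_C] at hd
      exact lt_irrefl _ hd
    have h3 : G + C G0 ≠ 0 := fun h => by
      rw [add_eq_zero_iff_eq_neg, ← C_neg] at h
      rw [h, natDegree_C] at hd
      exact lt_irrefl _ hd
    exact mul_ne_zero (mul_ne_zero h1 h2) h3
  have hfin : {x : ℤ | (G * (G - C G0) * (G + C G0)).IsRoot x}.Finite :=
    Polynomial.finite_setOfPred_isRoot hne
  let v : ℕ → ℤ := fun s => ((s : ℤ) + 1) * (N.factorial : ℤ) * G0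
  have hfac : (N.factorial : ℤ) ≠ 0 := by exact_mod_cast Nat.factorial_ne_zero N
  have hinj : Function.Injective v := by
    intro s s' h
    have h1 : ((s : ℤ) + 1) * ((N.factorial : ℤ) * G0) = ((s' : ℤ) + 1) * ((N.factorial : ℤ) * G0) := by
      simpa [v, mul_assoc] using h
    have h2 := mul_right_cancel₀ (mul_ne_zero hfac h0) h1
    omega
  obtain ⟨s, hs⟩ : ∃ s, v s ∉ {x : ℤ | (G * (G - C G0) * (G + C G0)).IsRoot x} := by
    by_contra hcon
    push Not at hcon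
    exact Set.infinite_range_of_injective hinj (hfin.subset (by rintro _ ⟨s, rfl⟩; exact hcon s))
  set t : ℤ := ((s : ℤ) + 1) * (N.factorial : ℤ) with ht
  have hvt : v s = t * G0 := rfl
  simp only [Set.mem_ofPred_eq, IsRoot.def, eval_mul, eval_sub, eval_add, eval_C, mul_eq_zero, not_or,
    sub_eq_zero, hvt] at hs
  obtain ⟨⟨hs1, hs2⟩, hs3⟩ := hs
  -- `G (t G0) = G0 * (1 + t * R)`
  have hform : G.eval (t * G0) = G0 * (1 + t * (G.divX).eval (t * G0)) := by
    conv_lhs => rw [← Polynomial.divX_mul_X_add G]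
    simp only [eval_add, eval_mul, eval_X, eval_C, coeff_zero_eq_eval_zero]
    rw [← hG0]
    ring
  set A : ℤ := 1 + t * (G.divX).eval (t * G0) with hA
  have hA1 : A ≠ 1 := fun h => hs2 (by rw [hform, h, mul_one])
  have hAm1 : A ≠ -1 := fun h => hs3 (by rw [hform, h]; ring)
  have hnat : A.natAbs ≠ 1 := by
    intro h
    rcases Int.natAbs_eq A with h' | h' <;> rw [h] at h' <;> simp at h' <;> tauto
  obtain ⟨q, hq, hqA⟩ := Nat.exists_prime_and_dvd hnat
  have hqA' : (q : ℤ) ∣ A := Int.natCast_dvd.2 hqA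
  refine ⟨q, t * G0, hq, ?_, ?_⟩
  · by_contra hle
    push Not at hle
    have h1 : (q : ℤ) ∣ (N.factorial : ℤ) := by
      exact_mod_cast (hq.dvd_factorial.2 hle)
    have h2 : (q : ℤ) ∣ t := Dvd.dvd.mul_left h1 _
    have h3 : (q : ℤ) ∣ 1 := by
      have h4 : (1 : ℤ) = A - t * (G.divX).eval (t * G0) := by rw [hA]; ring
      rw [h4]
      exact dvd_sub hqA' (Dvd.dvd.mul_right h2 _)
    have h5 := Int.eq_one_of_dvd_one (by positivity) h3
    have := hq.one_lt
    omega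
  · rw [hform]
    exact Dvd.dvd.mul_left hqA' _

/-- The arithmetic input: a large prime `q` and an even `c` with `q ∥ G(c)`. -/
lemma exists_data (G : ℤ[X]) (hm : G.Monic) (hirr : Irreducible G) (hd : 0 < G.natDegree)
    (h0 : G.eval 0 ≠ 0) (N : ℕ) :
    ∃ (q : ℕ) (c : ℤ), q.Prime ∧ N < q ∧ 2 < q ∧ (2 : ℤ) ∣ c ∧ (q : ℤ) ∣ G.eval c ∧
      ¬ ((q : ℤ) ^ 2 ∣ G.eval c) := by
  obtain ⟨A, B, D, hD, hAB⟩ := exists_bezout G hm hirr
  obtain ⟨q, c₀, hq, hqN, hqc⟩ := exists_prime_dvd_eval G hd h0 (N + 2 + D.natAbs)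
  have hq2 : 2 < q := by omega
  have hqodd : ¬ (2 : ℤ) ∣ (q : ℤ) := by
    intro h
    have : 2 ∣ q := by exact_mod_cast h
    have := (Nat.prime_dvd_prime_iff_eq Nat.prime_two hq).1 this
    omega
  have hqD : ¬ (q : ℤ) ∣ D := by
    intro h
    have h1 := Int.natAbs_dvd_natAbs.2 h
    simp only [Int.natAbs_natCast] at h1
    have h2 := Nat.le_of_dvd (Int.natAbs_pos.2 hD) h1
    omega
  have hderiv : ∀ c : ℤ, (q : ℤ) ∣ G.eval c → ¬ (q : ℤ) ∣ (derivative G).eval c := by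
    intro c h1 h2
    apply hqD
    have h3 := congrArg (eval c) hAB
    simp only [eval_add, eval_mul, eval_C] at h3
    rw [← h3]
    exact dvd_add (Dvd.dvd.mul_left h1 _) (Dvd.dvd.mul_left h2 _)
  -- an even point over `c₀`
  obtain ⟨c₁, hc₁2, hc₁q⟩ : ∃ c₁ : ℤ, (2 : ℤ) ∣ c₁ ∧ (q : ℤ) ∣ G.eval c₁ := by
    by_cases hc₀ : (2 : ℤ) ∣ c₀
    · exact ⟨c₀, hc₀, hqc⟩
    · refine ⟨c₀ + q, by omega, ?_⟩
      have h1 : ((c₀ + q) - c₀) ∣ G.eval (c₀ + q) - G.eval c₀ := Polynomial.sub_dvd_eval_sub _ _ _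
      have h2 : (q : ℤ) ∣ G.eval (c₀ + q) - G.eval c₀ := by simpa using h1
      have h3 := dvd_add h2 hqc
      simpa using h3
  by_cases hsq : (q : ℤ) ^ 2 ∣ G.eval c₁
  · -- use `c₁ + 2 q`
    refine ⟨q, c₁ + 2 * q, hq, by omega, hq2, ?_, ?_, ?_⟩
    · exact dvd_add hc₁2 (dvd_mul_right _ _)
    · have h1 : ((c₁ + 2 * q) - c₁) ∣ G.eval (c₁ + 2 * q) - G.eval c₁ := Polynomial.sub_dvd_eval_sub _ _ _
      have h2 : (q : ℤ) ∣ G.eval (c₁ + 2 * q) - G.eval c₁ :=
        Dvd.dvd.trans (by simp) h1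
      have h3 := dvd_add h2 hc₁q
      simpa using h3
    · intro hsq2
      obtain ⟨k, hk⟩ := Polynomial.binomExpansion G c₁ (2 * (q : ℤ))
      have h1 : (q : ℤ) ^ 2 ∣ (derivative G).eval c₁ * (2 * q) := by
        have h2 : (derivative G).eval c₁ * (2 * q) =
            G.eval (c₁ + 2 * q) - G.eval c₁ - k * (2 * q) ^ 2 := by
          rw [hk]; ring
        rw [h2]
        refine dvd_sub (dvd_sub hsq2 hsq) ?_
        exact ⟨k * 4, by ring⟩
      have hqne : (q : ℤ) ≠ 0 := by exact_mod_cast hq.ne_zero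
      obtain ⟨w, hw⟩ := h1
      have h3 : (q : ℤ) ∣ (derivative G).eval c₁ * 2 := by
        refine ⟨w, ?_⟩
        have : (q : ℤ) * ((derivative G).eval c₁ * 2) = (q : ℤ) * ((q : ℤ) * w) := by
          calc _ = (derivative G).eval c₁ * (2 * q) := by ring
            _ = _ := by rw [hw]; ring
        exact mul_left_cancel₀ hqne this
      have hqp : Prime (q : ℤ) := Nat.prime_iff_prime_int.1 hq
      rcases hqp.dvd_or_dvd h3 with h4 | h4
      · exact hderiv c₁ hc₁q h4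
      · have h5 : (q : ℕ) ∣ 2 := by exact_mod_cast h4
        have := Nat.le_of_dvd (by norm_num) h5
        omega
  · exact ⟨q, c₁, hq, by omega, hq2, hc₁2, hc₁q, hsq⟩

end Vale.Agent.Lib.P007
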