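import Mathlib

open Matrix MeasureTheory Filter Topology

namespace Vale.Agent.Lib.P007

/-- The image of `SL_n(ℤ)` in `SL_n(ℝ)`. -/
def gammaZ (n : ℕ) : Subgroup (SpecialLinearGroup (Fin n) ℝ) :=
  (SpecialLinearGroup.map (Int.castRingHom ℝ)).range

/-- The space `X_n = SL_n(ℤ) \ SL_n(ℝ)` of right cosets `Γ g`, with the quotient topology. -/
def XSpace (n : ℕ) : Type := Quotient (QuotientGroup.rightRel (gammaZ n))

instance (n : ℕ) : TopologicalSpace (XSpace n) :=
  inferInstanceAs (TopologicalSpace (Quotient (QuotientGroup.rightRel (gammaZ n))))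

instance (n : ℕ) : MeasurableSpace (XSpace n) := borel _

instance (n : ℕ) : BorelSpace (XSpace n) := ⟨rfl⟩

/-- The coset `Γ g` of `g ∈ SL_n(ℝ)`. -/
def XSpace.mk {n : ℕ} (g : SpecialLinearGroup (Fin n) ℝ) : XSpace n :=
  Quotient.mk (QuotientGroup.rightRel (gammaZ n)) g

/-- Right translation `Γ g ↦ Γ g h` on `X_n`. -/
def XSpace.act {n : ℕ} (h : SpecialLinearGroup (Fin n) ℝ) : XSpace n → XSpace n :=
  Quotient.map (fun g => g * h) (by
    intro x y hxy
    have h1 := QuotientGroup.rightRel_apply.mp hxy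
    refine QuotientGroup.rightRel_apply.mpr ?_
    simpa [mul_assoc] using h1)

/-- The subgroup of `ℝ^n` spanned over `ℤ` by the rows of `g`: the lattice attached to `Γ g`. -/
def rowLattice {n : ℕ} (g : SpecialLinearGroup (Fin n) ℝ) : AddSubgroup (Fin n → ℝ) :=
  AddSubgroup.closure (Set.range fun i => (g : Matrix (Fin n) (Fin n) ℝ) i)

section Field

variable {K : Type} [Field K]

/-- A subring of `K` consists of algebraic integers and spans `K` over `ℚ`: an order of `K`. -/
def IsOrderOf [NumberField K] (O : Subring K) : Prop :=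
  (∀ x ∈ O, IsIntegral ℤ x) ∧ Submodule.span ℚ (O : Set K) = ⊤

/-- The maximal order `𝓞_K`, as a subring of `K`. -/
def maxOrder (K : Type) [Field K] : Subring K := (integralClosure ℤ K).toSubring

/-- `I` is a proper invertible fractional `O`-ideal of `K`. -/
structure IsProperInvertible (O : Subring K) (I : Submodule O K) : Prop where
  ne_bot : I ≠ ⊥
  fg : I.FG
  proper : ∀ α : K, (∀ x ∈ I, α * x ∈ I) ↔ α ∈ O
  invertible : ∃ J : Submodule O K, J ≠ ⊥ ∧ J.FG ∧ ((I * J : Submodule O K) : Set K) = O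

/-- `g ∈ SL_n(ℝ)` is a basis of a lattice of the form `c σ(I) w a`, where `I` is a proper invertible
fractional `O`-ideal, `c > 0` (forced to be the normalisation by covolume, since `det g = 1`),
`w` is diagonal with entries `±1` and `a = diag(exp u)` lies in `A_n`. -/
def IsPacketRep {n : ℕ} (O : Subring K) (σ : Fin n ≃ (K →+* ℝ))
    (g : SpecialLinearGroup (Fin n) ℝ) : Prop :=
  ∃ I : Submodule O K, IsProperInvertible O I ∧
    ∃ (c : ℝ) (w u : Fin n → ℝ), 0 < c ∧ (∀ j, w j = 1 ∨ w j = -1) ∧ ∑ j, u j = 0 ∧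
      (rowLattice g : Set (Fin n → ℝ)) =
        {v | ∃ x ∈ I, ∀ j, v j = c * σ j x * w j * Real.exp (u j)}

/-- The union in `X_n` of the orbits `Λ_I w A_n` of the packet `P_{O,σ}`. -/
def packetSet {n : ℕ} (O : Subring K) (σ : Fin n ≃ (K →+* ℝ)) : Set (XSpace n) :=
  XSpace.mk '' {g | IsPacketRep O σ g}

end Field

end Vale.Agent.Lib.P007
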