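import Vale.Agent.Lib.P007.Defs

open Matrix NumberField Module

namespace Vale.Agent.Lib.P007

variable {K : Type} [Field K] [NumberField K]

/-- An order has a `ℤ`-basis of the right size which is a `ℚ`-basis of `K`. -/
lemma exists_zbasis (O : Subring K) (hO : IsOrderOf O) (n : ℕ) (hdeg : finrank ℚ K = n) :
    ∃ (b : Basis (Fin n) ℚ K), AddSubgroup.closure (Set.range b) = O.toAddSubgroup := by
  classical
  let S : Submodule ℤ (𝓞 K) := AddSubgroup.toIntSubmodule
    (O.toAddSubgroup.comap (algebraMap (𝓞 K) K).toAddMonoidHom)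
  have hS : ∀ x : 𝓞 K, x ∈ S ↔ (x : K) ∈ O := fun x => Iff.rfl
  obtain ⟨m, e⟩ := Submodule.basisOfPid (RingOfIntegers.basis K) S
  let ψ : S →ₗ[ℤ] K := ((algebraMap (𝓞 K) K).toAddMonoidHom.comp S.subtype.toAddMonoidHom).toIntLinearMap
  have hψ : ∀ y : S, ψ y = ((y : 𝓞 K) : K) := fun _ => rfl
  have hψinj : Function.Injective ψ := by
    intro y y' h
    exact Subtype.ext (RingOfIntegers.coe_injective h)
  let b₀ : Fin m → K := ψ ∘ e
  have hb₀O : ∀ i, b₀ i ∈ O := fun i => (hS _).1 (e i).2
  have hOspan : ∀ x ∈ O, x ∈ AddSubgroup.closure (Set.range b₀) := by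
    intro x hx
    let x' : 𝓞 K := ⟨x, hO.1 x hx⟩
    have hx' : x' ∈ S := (hS x').2 hx
    have h1 := e.sum_repr ⟨x', hx'⟩
    have h2 : x = ∑ i, (e.repr ⟨x', hx'⟩ i) • b₀ i := by
      have h3 := congrArg ψ h1
      rw [map_sum] at h3
      simp only [map_smul] at h3
      exact h3.symm
    rw [h2]
    exact AddSubgroup.sum_mem _ fun i _ =>
      AddSubgroup.zsmul_mem _ (AddSubgroup.subset_closure (Set.mem_range_self i)) _
  have hclosure : AddSubgroup.closure (Set.range b₀) = O.toAddSubgroup := by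
    apply le_antisymm
    · rw [AddSubgroup.closure_le]
      rintro _ ⟨i, rfl⟩
      exact hb₀O i
    · exact fun x hx => hOspan x hx
  have hlinZ : LinearIndependent ℤ b₀ :=
    e.linearIndependent.map' ψ (LinearMap.ker_eq_bot.2 hψinj)
  have hlinQ : LinearIndependent ℚ b₀ := (LinearIndependent.iff_fractionRing ℤ ℚ).1 hlinZ
  have hspanQ : ⊤ ≤ Submodule.span ℚ (Set.range b₀) := by
    rw [← hO.2, Submodule.span_le]
    intro x hx
    have h1 : AddSubgroup.closure (Set.range b₀) ≤
        (Submodule.span ℚ (Set.range b₀)).toAddSubgroup := by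
      rw [AddSubgroup.closure_le]
      exact Submodule.subset_span
    exact h1 (hOspan x hx)
  let bb := Basis.mk hlinQ hspanQ
  have hm : m = n := by
    have := finrank_eq_card_basis bb
    rw [hdeg] at this
    simpa using this.symm
  subst hm
  refine ⟨bb, ?_⟩
  rw [Basis.coe_mk]
  exact hclosure

/-- The embedding matrix of a `ℚ`-basis is invertible (Dedekind independence of characters). -/
lemma det_embedding_ne_zero {n : ℕ} (σ : Fin n ≃ (K →+* ℝ)) (b : Basis (Fin n) ℚ K) :
    (Matrix.of fun i j => σ j (b i)).det ≠ 0 := by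
  classical
  intro hdet
  obtain ⟨v, hv0, hv⟩ := Matrix.exists_mulVec_eq_zero_iff.2 hdet
  apply hv0
  have hall : ∀ x : K, ∑ j, v j * σ j x = 0 := by
    intro x
    have h1 : ∀ j, σ j x = ∑ i, ((b.repr x i : ℚ) : ℝ) * σ j (b i) := by
      intro j
      conv_lhs => rw [← b.sum_repr x]
      rw [map_sum]
      refine Finset.sum_congr rfl fun i _ => ?_
      rw [Rat.smul_def, map_mul, map_ratCast]
    simp only [h1, Finset.mul_sum]
    rw [Finset.sum_comm]
    refine Finset.sum_eq_zero fun i _ => ?_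
    have h2 := congrFun hv i
    simp only [Matrix.mulVec, dotProduct, Matrix.of_apply, Pi.zero_apply] at h2
    calc ∑ j, v j * (((b.repr x i : ℚ) : ℝ) * σ j (b i))
        = ((b.repr x i : ℚ) : ℝ) * ∑ j, σ j (b i) * v j := by
          rw [Finset.mul_sum]
          refine Finset.sum_congr rfl fun j _ => by ring
      _ = 0 := by rw [h2, mul_zero]
  have hli : LinearIndependent ℝ (fun j : Fin n => ((σ j : K →* ℝ) : K → ℝ)) := by
    have h0 := linearIndependent_monoidHom K ℝ
    refine h0.comp (fun j : Fin n => (σ j : K →* ℝ)) ?_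
    intro j j' h
    apply σ.injective
    ext x
    exact congrFun (congrArg (fun f : K →* ℝ => (f : K → ℝ)) h) x
  have := Fintype.linearIndependent_iff.1 hli v (by
    ext x
    simp only [Finset.sum_apply, Pi.smul_apply, smul_eq_mul, Pi.zero_apply]
    exact hall x)
  ext j
  exact this j

/-- The unit fractional ideal `O` itself is proper and invertible. -/
lemma isProperInvertible_one (O : Subring K) : IsProperInvertible O (1 : Submodule O K) := by
  have hmem : ∀ x : K, x ∈ (1 : Submodule O K) ↔ x ∈ O := by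
    intro x
    rw [Submodule.mem_one]
    constructor
    · rintro ⟨y, rfl⟩
      exact y.2
    · intro hx
      exact ⟨⟨x, hx⟩, rfl⟩
  refine ⟨?_, ?_, ?_, 1, ?_, ?_, ?_⟩
  · intro h
    have h1 : (1 : K) ∈ (1 : Submodule O K) := (hmem 1).2 O.one_mem
    rw [h, Submodule.mem_bot] at h1
    exact one_ne_zero h1
  · rw [Submodule.one_eq_span]
    exact Submodule.fg_span_singleton _
  · intro α
    constructor
    · intro h
      have h1 := h 1 ((hmem 1).2 O.one_mem)
      rw [mul_one] at h1
      exact (hmem α).1 h1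
    · intro hα x hx
      exact (hmem _).2 (O.mul_mem hα ((hmem x).1 hx))
  · intro h
    have h1 : (1 : K) ∈ (1 : Submodule O K) := (hmem 1).2 O.one_mem
    rw [h, Submodule.mem_bot] at h1
    exact one_ne_zero h1
  · rw [Submodule.one_eq_span]
    exact Submodule.fg_span_singleton _
  · rw [mul_one]
    ext x
    exact hmem x

/-- The packet of an order is nonempty. -/
theorem packetSet_nonempty (O : Subring K) (hO : IsOrderOf O) {n : ℕ} (hn : 0 < n)
    (hdeg : finrank ℚ K = n) (σ : Fin n ≃ (K →+* ℝ)) : (packetSet O σ).Nonempty := by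
  classical
  obtain ⟨b, hb⟩ := exists_zbasis O hO n hdeg
  set A : Matrix (Fin n) (Fin n) ℝ := Matrix.of fun i j => σ j (b i) with hA
  have hdet : A.det ≠ 0 := det_embedding_ne_zero σ b
  let c : ℝ := (|A.det|⁻¹) ^ ((n : ℝ)⁻¹)
  have hapos : 0 < |A.det|⁻¹ := inv_pos.2 (abs_pos.2 hdet)
  have hc : 0 < c := Real.rpow_pos_of_pos hapos _
  have hcn : c ^ n = |A.det|⁻¹ := Real.rpow_inv_natCast_pow hapos.le hn.ne'
  let s : ℝ := if 0 < A.det then 1 else -1
  have hs : A.det * s = |A.det| := by
    simp only [s]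
    split_ifs with h
    · rw [abs_of_pos h, mul_one]
    · rw [abs_of_nonpos (not_lt.1 h)]; ring
  let j₀ : Fin n := ⟨0, hn⟩
  let w : Fin n → ℝ := fun j => if j = j₀ then s else 1
  have hw : ∀ j, w j = 1 ∨ w j = -1 := by
    intro j
    simp only [w, s]
    split_ifs <;> simp
  have hprodw : ∏ j, w j = s := by
    simp only [w]
    rw [Finset.prod_ite_eq' Finset.univ j₀ (fun _ => s)]
    simp
  let d : Fin n → ℝ := fun j => c * w j
  have hdetg : (A * Matrix.diagonal d).det = 1 := by
    rw [Matrix.det_mul, Matrix.det_diagonal]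
    simp only [d, Finset.prod_mul_distrib, Finset.prod_const, Finset.card_univ, Fintype.card_fin,
      hprodw, hcn]
    calc A.det * (|A.det|⁻¹ * s) = (A.det * s) * |A.det|⁻¹ := by ring
      _ = 1 := by rw [hs]; exact mul_inv_cancel₀ (abs_ne_zero.2 hdet)
  let g : SpecialLinearGroup (Fin n) ℝ := ⟨A * Matrix.diagonal d, hdetg⟩
  refine ⟨XSpace.mk g, g, ?_, rfl⟩
  refine ⟨1, isProperInvertible_one O, c, w, 0, hc, hw, by simp, ?_⟩
  -- the row lattice
  let Φ : K →+ (Fin n → ℝ) :=
    { toFun := fun x j => c * σ j x * w j * Real.exp ((0 : Fin n → ℝ) j)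
      map_zero' := by ext j; simp
      map_add' := by intro x y; ext j; simp; ring }
  have hrow : (fun i => (g : Matrix (Fin n) (Fin n) ℝ) i) = Φ ∘ b := by
    ext i j
    change (A * Matrix.diagonal d) i j = c * σ j (b i) * w j * Real.exp 0
    rw [Matrix.mul_diagonal]
    simp [hA, d]
    ring
  have hL : rowLattice g = O.toAddSubgroup.map Φ := by
    rw [rowLattice, hrow, Set.range_comp, ← AddMonoidHom.map_closure, hb]
  rw [hL]
  ext v
  constructor
  · rintro ⟨x, hx, rfl⟩
    refine ⟨x, Submodule.mem_one.2 ⟨⟨x, hx⟩, rfl⟩, fun j => rfl⟩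
  · rintro ⟨x, hx, hv⟩
    obtain ⟨y, rfl⟩ := Submodule.mem_one.1 hx
    refine ⟨y, y.2, ?_⟩
    ext j
    exact (hv j).symm

end Vale.Agent.Lib.P007
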