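import Vale.Agent.Lib.P007.Necessary
import Vale.Agent.Lib.P007.Construct
import Vale.Agent.Lib.P007.NonemptyPacket

open Matrix MeasureTheory Filter Topology NumberField

namespace Vale.Agent.Lib.P007

lemma isOrderOf_maxOrder (K : Type) [Field K] [NumberField K] : IsOrderOf (maxOrder K) := by
  refine ⟨fun x hx => hx, ?_⟩
  refine eq_top_iff.2 fun x _ => ?_
  have halg : IsAlgebraic ℤ x :=
    (IsFractionRing.isAlgebraic_iff ℤ ℚ K).2 (Algebra.IsAlgebraic.isAlgebraic x)
  obtain ⟨d, hd, hy⟩ := halg.exists_integral_multiple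
  have hd' : ((d : ℤ) : ℚ) ≠ 0 := by exact_mod_cast hd
  have hx : x = (((d : ℤ) : ℚ))⁻¹ • (d • x) := by
    rw [← Int.cast_smul_eq_zsmul ℚ, smul_smul, inv_mul_cancel₀ hd', one_smul]
  rw [hx]
  exact Submodule.smul_mem _ _ (Submodule.subset_span hy)

/-- For every composite `n = a b`: a sequence of totally real fields of degree `n` with
discriminants tending to infinity whose maximal orders have all their packets in the zero set of
one fixed compactly supported function of positive `m_n`-integral. -/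
theorem composite_failure (n a b : ℕ) (ha : 2 ≤ a) (hb : 2 ≤ b) (hn : n = a * b) :
    ∃ (K : ℕ → Type) (_ : ∀ i, Field (K i)) (_ : ∀ i, NumberField (K i))
      (_ : ∀ i, NumberField.IsTotallyReal (K i)) (σ : ∀ i, Fin n ≃ (K i →+* ℝ)),
      (∀ i, Module.finrank ℚ (K i) = n) ∧
      Tendsto (fun i => |NumberField.discr (K i)|) atTop atTop ∧
      (∀ i, IsOrderOf (maxOrder (K i))) ∧
      (∀ i, (packetSet (maxOrder (K i)) (σ i)).Nonempty) ∧
      ∃ f : XSpace n → ℝ, Continuous f ∧ HasCompactSupport f ∧ (∀ x, 0 ≤ f x) ∧ (∃ x, f x ≠ 0) ∧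
        (∀ i, ∀ x ∈ packetSet (maxOrder (K i)) (σ i), f x = 0) ∧
        ∀ m : Measure (XSpace n), IsProbabilityMeasure m → (∀ h, m.map (XSpace.act h) = m) →
          0 < ∫ x, f x ∂m ∧
          ∀ μ : ℕ → Measure (XSpace n),
            (∀ i, μ i (packetSet (maxOrder (K i)) (σ i))ᶜ = 0) →
            ¬ Tendsto (fun i => ∫ x, f x ∂(μ i)) atTop (𝓝 (∫ x, f x ∂m)) := by
  subst hn
  have hex := fun i : ℕ => exists_field a b ha hb i
  choose K hF hN hT σ α hfr hint hσ hdisc using hex
  refine ⟨K, hF, hN, hT, σ, hfr, ?_, fun i => isOrderOf_maxOrder (K i), fun i => ?_, ?_⟩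
  · refine tendsto_atTop_mono (fun i => hdisc i) ?_
    exact tendsto_natCast_atTop_atTop
  · exact packetSet_nonempty _ (isOrderOf_maxOrder (K i)) (by positivity) (hfr i) (σ i)
  · obtain ⟨f, hfc, hfs, hfpos, hfne, hfZ, hfm⟩ :=
      exists_test_function (TT a b) (TT_nonconstant a b ha hb)
    have hzero : ∀ i, ∀ x ∈ packetSet (maxOrder (K i)) (σ i), f x = 0 := fun i x hx =>
      hfZ x (packetSet_subset_ZX _ _ _ ⟨α i, hint i, hσ i⟩ hx)
    refine ⟨f, hfc, hfs, hfpos, hfne, hzero, fun m hm hinv => ⟨hfm m hm hinv, fun μ hμ => ?_⟩⟩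
    exact not_tendsto_of_vanishing f m (hfm m hm hinv) μ _ hμ hzero

/-- The general necessary condition, restated in one theorem together with the fixed-element
obstruction: any sequence of orders containing a common non-scalar element never equidistributes. -/
theorem fixed_element_failure (n : ℕ) (T : Fin n → ℝ) (hT : ∃ i j, T i ≠ T j) :
    ∃ f : XSpace n → ℝ, Continuous f ∧ HasCompactSupport f ∧ (∀ x, 0 ≤ f x) ∧ (∃ x, f x ≠ 0) ∧
      (∀ (K : Type) [Field K] (O : Subring K) (σ : Fin n ≃ (K →+* ℝ)),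
        (∃ α ∈ O, ∀ j, σ j α = T j) → ∀ x ∈ packetSet O σ, f x = 0) ∧
      ∀ m : Measure (XSpace n), IsProbabilityMeasure m → (∀ h, m.map (XSpace.act h) = m) →
        0 < ∫ x, f x ∂m := by
  obtain ⟨f, hfc, hfs, hfpos, hfne, hfZ, hfm⟩ := exists_test_function T hT
  exact ⟨f, hfc, hfs, hfpos, hfne, fun K _ O σ h x hx => hfZ x (packetSet_subset_ZX O σ T h hx), hfm⟩

end Vale.Agent.Lib.P007
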