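import Vale.Agent.Lib.P007.Obstruction

open Matrix MeasureTheory Filter Topology Polynomial NumberField

namespace Vale.Agent.Lib.P007

section Single

variable {K : Type} [Field K] [NumberField K] {n : ℕ}

/-- With `n = [K : ℚ]` ordered real embeddings, every complex embedding is one of them. -/
lemma exists_real_of_complex (hdeg : Module.finrank ℚ K = n) (σ : Fin n ≃ (K →+* ℝ))
    (φ : K →+* ℂ) : ∃ j, φ = Complex.ofRealHom.comp (σ j) := by
  classical
  let e₀ : Fin n → (K →+* ℂ) := fun j => Complex.ofRealHom.comp (σ j)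
  have hinj : Function.Injective e₀ := by
    intro j j' h
    apply σ.injective
    ext x
    have := congrFun (congrArg DFunLike.coe h) x
    exact Complex.ofReal_injective this
  have hcard : Fintype.card (Fin n) = Fintype.card (K →+* ℂ) := by
    rw [Fintype.card_fin, NumberField.Embeddings.card K ℂ, hdeg]
  obtain ⟨j, hj⟩ := (Fintype.bijective_iff_injective_and_card e₀).2 ⟨hinj, hcard⟩ |>.2 φ
  exact ⟨j, hj.symm⟩

/-- An algebraic integer all of whose real conjugates are equal is a rational integer. -/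
lemma eq_int_of_conj_eq (hdeg : Module.finrank ℚ K = n) (σ : Fin n ≃ (K →+* ℝ)) {α : K}
    (hα : IsIntegral ℤ α) (t : ℝ) (ht : ∀ j, σ j α = t) : ∃ z : ℤ, α = z := by
  classical
  have hint : IsIntegral ℚ α := hα.tower_top
  have hroots : (minpoly ℚ α).rootSet ℂ ⊆ {(t : ℂ)} := by
    rw [← NumberField.Embeddings.range_eval_eq_rootSet_minpoly K ℂ α]
    rintro _ ⟨φ, rfl⟩
    obtain ⟨j, rfl⟩ := exists_real_of_complex hdeg σ φ
    simp [ht j]
  have hsep : (minpoly ℚ α).Separable := (minpoly.irreducible hint).separable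
  have hcard := Polynomial.card_rootSet_eq_natDegree (K := ℂ) hsep (IsAlgClosed.splits _)
  have hle : Fintype.card ((minpoly ℚ α).rootSet ℂ) ≤ 1 := by
    rw [Fintype.card_le_one_iff]
    intro a b
    apply Subtype.ext
    have h1 := hroots a.2
    have h2 := hroots b.2
    rw [Set.mem_singleton_iff] at h1 h2
    rw [h1, h2]
  have hdeg1 : (minpoly ℚ α).natDegree = 1 := by
    have hpos := minpoly.natDegree_pos hint
    omega
  obtain ⟨q, rfl⟩ := minpoly.natDegree_eq_one_iff.1 hdeg1
  have hq : IsIntegral ℤ q := by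
    have := (isIntegral_algebraMap_iff (algebraMap ℚ K).injective).1 hα
    exact this
  obtain ⟨z, hz⟩ := IsIntegrallyClosed.isIntegral_iff.1 hq
  refine ⟨z, ?_⟩
  rw [← hz]
  simp

end Single

/-- A finite set of real numbers containing all conjugates of all bounded algebraic integers of
bounded degree. -/
lemma exists_finite_values (n : ℕ) (R : ℝ) :
    ∃ Y : Set ℝ, Y.Finite ∧ ∀ (K : Type) [Field K] [NumberField K]
      (_ : Module.finrank ℚ K = n) (σ : Fin n ≃ (K →+* ℝ)) (α : K), IsIntegral ℤ α →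
      (∀ j, |σ j α| ≤ R) → ∀ j, σ j α ∈ Y := by
  classical
  let C : ℕ := Nat.ceil (max R 1 ^ n * n.choose (n / 2))
  have hfin := bUnion_roots_finite (algebraMap ℤ ℝ) n (Set.finite_Icc (-C : ℤ) C)
  refine ⟨_, hfin, ?_⟩
  intro K _ _ hdeg σ α hα hbd j
  simp_rw [Set.mem_iUnion]
  have h_map := minpoly.isIntegrallyClosed_eq_field_fractions' ℚ hα
  have hnorm : ∀ φ : K →+* ℂ, ‖φ α‖ ≤ R := by
    intro φ
    obtain ⟨j', rfl⟩ := exists_real_of_complex hdeg σ φ
    simpa using hbd j'
  refine ⟨minpoly ℤ α, ⟨?_, fun i => ?_⟩, ?_⟩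
  · rw [← (minpoly.monic hα).natDegree_map (algebraMap ℤ ℚ), ← h_map, ← hdeg]
    exact minpoly.natDegree_le α
  · rw [Set.mem_Icc, ← abs_le, ← @Int.cast_le ℝ]
    have h1 := NumberField.Embeddings.coeff_bdd_of_norm_le (K := K) (A := ℂ) hnorm i
    rw [hdeg] at h1
    refine (Eq.trans_le ?_ h1).trans (Nat.le_ceil _)
    rw [h_map, coeff_map, eq_intCast, Int.norm_cast_rat, Int.norm_eq_abs, Int.cast_abs]
  · have h0 : aeval (σ j α) (minpoly ℤ α) = 0 := by
      have h1 := minpoly.aeval ℤ α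
      have h2 : σ j (aeval α (minpoly ℤ α)) = aeval (σ j α) (minpoly ℤ α) := by
        rw [aeval_def, aeval_def, Polynomial.hom_eval₂]
        congr 1
        exact RingHom.ext_int _ _
      rw [← h2, h1, map_zero]
    have hne : (minpoly ℤ α).map (algebraMap ℤ ℝ) ≠ 0 :=
      ((minpoly.monic hα).map _).ne_zero
    simp only [Finset.mem_coe, Multiset.mem_toFinset]
    rw [mem_roots hne, IsRoot.def, eval_map, ← aeval_def]
    exact h0

/-- The necessary condition: equidistribution forces the small non-rational elements of the orders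
to disappear. -/
theorem necessary_condition {n : ℕ} (K : ℕ → Type) [∀ i, Field (K i)] [∀ i, NumberField (K i)]
    (hdeg : ∀ i, Module.finrank ℚ (K i) = n) (σ : ∀ i, Fin n ≃ (K i →+* ℝ))
    (O : ∀ i, Subring (K i)) (hO : ∀ i, IsOrderOf (O i))
    (m : Measure (XSpace n)) [IsProbabilityMeasure m] (hm : ∀ h, m.map (XSpace.act h) = m)
    (μ : ℕ → Measure (XSpace n)) (hμ : ∀ i, μ i (packetSet (O i) (σ i))ᶜ = 0)
    (hconv : ∀ f : XSpace n → ℝ, Continuous f → HasCompactSupport f →
      Tendsto (fun i => ∫ x, f x ∂(μ i)) atTop (𝓝 (∫ x, f x ∂m)))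
    (R : ℝ) :
    ∀ᶠ i in atTop, ∀ α ∈ O i, (∀ j, |σ i j α| ≤ R) → ∃ z : ℤ, α = z := by
  classical
  obtain ⟨Y, hY, hYmem⟩ := exists_finite_values n R
  by_contra hcon
  rw [Filter.not_eventually] at hcon
  -- the finite set of possible diagonal matrices
  let S : Set (Fin n → ℝ) := {T | (∀ j, T j ∈ Y) ∧ ∃ i j, T i ≠ T j}
  have hS : S.Finite := by
    refine (Set.Finite.pi' (ι := Fin n) (t := fun _ => Y) fun _ => hY).subset ?_
    intro T hT
    simpa using hT.1
  have hfreq : ∃ᶠ i in atTop, ∃ T ∈ S, ∃ α ∈ O i, ∀ j, σ i j α = T j := by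
    refine hcon.mono fun i hi => ?_
    push Not at hi
    obtain ⟨α, hαO, hbd, hnot⟩ := hi
    have hαint : IsIntegral ℤ α := (hO i).1 α hαO
    refine ⟨fun j => σ i j α, ⟨fun j => hYmem (K i) (hdeg i) (σ i) α hαint hbd j, ?_⟩, α, hαO,
      fun _ => rfl⟩
    by_contra hconst
    push Not at hconst
    by_cases hn : 0 < n
    · exact hnot _ (eq_int_of_conj_eq (hdeg i) (σ i) hαint (σ i ⟨0, hn⟩ α) fun j =>
        hconst j ⟨0, hn⟩).choose_spec
    · -- degree zero is impossible for a number field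
      have h1 : Module.finrank ℚ (K i) = 0 := by rw [hdeg i]; omega
      have h2 : 0 < Module.finrank ℚ (K i) := Module.finrank_pos
      omega
  -- pigeonhole
  obtain ⟨T, hT, hTfreq⟩ : ∃ T ∈ S, ∃ᶠ i in atTop, ∃ α ∈ O i, ∀ j, σ i j α = T j := by
    by_contra hno
    push Not at hno
    have h1 : ∀ᶠ i in atTop, ∀ T ∈ S, ¬ ∃ α ∈ O i, ∀ j, σ i j α = T j := by
      rw [Filter.eventually_all_finite hS]
      intro T hT
      filter_upwards [hno T hT] with i hi
      rintro ⟨α, hαO, h⟩
      obtain ⟨j, hj⟩ := hi α hαO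
      exact hj (h j)
    apply hfreq
    filter_upwards [h1] with i hi
    rintro ⟨T, hT, h⟩
    exact hi T hT h
  obtain ⟨f, hfc, hfs, hfpos, -, hfZ, hfm⟩ := exists_test_function T hT.2
  have hL := hfm m inferInstance hm
  have hev := (hconv f hfc hfs).eventually (lt_mem_nhds hL)
  have := hTfreq.and_eventually hev
  obtain ⟨i, hi, hpos⟩ := this.exists
  have hzero : ∫ x, f x ∂(μ i) = 0 := by
    refine integral_eq_zero_of_ae ?_
    have hae : ∀ᵐ x ∂(μ i), x ∈ packetSet (O i) (σ i) := by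
      rw [ae_iff]
      exact hμ i
    filter_upwards [hae] with x hx
    exact hfZ x (packetSet_subset_ZX (O i) (σ i) T hi hx)
  rw [hzero] at hpos
  exact lt_irrefl _ hpos

end Vale.Agent.Lib.P007
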