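import Vale.Agent.Lib.P007.Topo

open Matrix MeasureTheory Filter Topology

namespace Vale.Agent.Lib.P007

variable {n : ℕ}

lemma coe_mul_inv_self (g : SpecialLinearGroup (Fin n) ℝ) :
    (g : Matrix (Fin n) (Fin n) ℝ) * ((g⁻¹ : SpecialLinearGroup (Fin n) ℝ) : Matrix (Fin n) (Fin n) ℝ) = 1 :=
  congrArg Subtype.val (mul_inv_cancel g)

lemma coe_inv_mul_self (g : SpecialLinearGroup (Fin n) ℝ) :
    ((g⁻¹ : SpecialLinearGroup (Fin n) ℝ) : Matrix (Fin n) (Fin n) ℝ) * (g : Matrix (Fin n) (Fin n) ℝ) = 1 :=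
  congrArg Subtype.val (inv_mul_cancel g)

/-- Matrices `g` such that `g T g⁻¹` is integral, where `T` is the diagonal matrix with entries `T j`;
equivalently the row lattice of `g` is stable under the diagonal map `T`. -/
def ZG (T : Fin n → ℝ) : Set (SpecialLinearGroup (Fin n) ℝ) :=
  {g | ∃ M : Matrix (Fin n) (Fin n) ℤ,
    (g : Matrix (Fin n) (Fin n) ℝ) * diagonal T = M.map (Int.cast : ℤ → ℝ) * (g : Matrix (Fin n) (Fin n) ℝ)}

lemma mem_ZG_iff (T : Fin n → ℝ) (g : SpecialLinearGroup (Fin n) ℝ) :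
    g ∈ ZG T ↔ ∀ i j, ((g : Matrix (Fin n) (Fin n) ℝ) * diagonal T *
        ((g⁻¹ : SpecialLinearGroup (Fin n) ℝ) : Matrix (Fin n) (Fin n) ℝ)) i j ∈ Set.range (Int.cast : ℤ → ℝ) := by
  constructor
  · rintro ⟨M, hM⟩ i j
    refine ⟨M i j, ?_⟩
    rw [hM]
    have : (M.map (Int.cast : ℤ → ℝ) * (g : Matrix (Fin n) (Fin n) ℝ)) *
        ((g⁻¹ : SpecialLinearGroup (Fin n) ℝ) : Matrix (Fin n) (Fin n) ℝ) = M.map (Int.cast : ℤ → ℝ) := by
      rw [Matrix.mul_assoc, coe_mul_inv_self, Matrix.mul_one]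
    rw [this]
    rfl
  · intro h
    choose M hM using h
    refine ⟨Matrix.of M, ?_⟩
    have : (Matrix.of M).map (Int.cast : ℤ → ℝ) = (g : Matrix (Fin n) (Fin n) ℝ) * diagonal T *
        ((g⁻¹ : SpecialLinearGroup (Fin n) ℝ) : Matrix (Fin n) (Fin n) ℝ) := by
      ext i j
      simpa using hM i j
    rw [this, Matrix.mul_assoc _ _ (g : Matrix (Fin n) (Fin n) ℝ), coe_inv_mul_self, Matrix.mul_one]

lemma isClosed_ZG (T : Fin n → ℝ) : IsClosed (ZG T) := by
  have : ZG T = ⋂ i, ⋂ j, (fun g : SpecialLinearGroup (Fin n) ℝ =>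
      ((g : Matrix (Fin n) (Fin n) ℝ) * diagonal T *
        ((g⁻¹ : SpecialLinearGroup (Fin n) ℝ) : Matrix (Fin n) (Fin n) ℝ)) i j) ⁻¹'
        Set.range (Int.cast : ℤ → ℝ) := by
    ext g
    simp only [Set.mem_iInter, Set.mem_preimage]
    exact mem_ZG_iff T g
  rw [this]
  refine isClosed_iInter fun i => isClosed_iInter fun j => ?_
  refine Int.isClosedEmbedding_coe_real.isClosed_range.preimage ?_
  have h1 : Continuous fun g : SpecialLinearGroup (Fin n) ℝ => (g : Matrix (Fin n) (Fin n) ℝ) :=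
    SpecialLinearGroup.isClosedEmbedding_val.continuous
  have h2 : Continuous fun g : SpecialLinearGroup (Fin n) ℝ =>
      ((g⁻¹ : SpecialLinearGroup (Fin n) ℝ) : Matrix (Fin n) (Fin n) ℝ) :=
    h1.comp continuous_inv
  have h3 : Continuous fun g : SpecialLinearGroup (Fin n) ℝ =>
      (g : Matrix (Fin n) (Fin n) ℝ) * diagonal T *
        ((g⁻¹ : SpecialLinearGroup (Fin n) ℝ) : Matrix (Fin n) (Fin n) ℝ) :=
    (h1.matrix_mul continuous_const).matrix_mul h2
  exact (continuous_apply j).comp ((continuous_apply i).comp h3)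

/-- `ZG T` is left invariant under `SL_n(ℤ)`. -/
lemma ZG_left_invariant (T : Fin n → ℝ) {g h : SpecialLinearGroup (Fin n) ℝ}
    (hg : g ∈ ZG T) (hgh : h * g⁻¹ ∈ gammaZ n) : h ∈ ZG T := by
  obtain ⟨M, hM⟩ := hg
  obtain ⟨γ, hγ⟩ := hgh
  have hh : h = SpecialLinearGroup.map (Int.castRingHom ℝ) γ * g := by
    rw [hγ]; simp
  let A : Matrix (Fin n) (Fin n) ℤ := (γ : Matrix (Fin n) (Fin n) ℤ)
  let B : Matrix (Fin n) (Fin n) ℤ := ((γ⁻¹ : SpecialLinearGroup (Fin n) ℤ) : Matrix (Fin n) (Fin n) ℤ)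
  have hAB : B * A = 1 := by
    exact congrArg Subtype.val (inv_mul_cancel γ)
  have hcast : ((SpecialLinearGroup.map (Int.castRingHom ℝ) γ : SpecialLinearGroup (Fin n) ℝ) :
      Matrix (Fin n) (Fin n) ℝ) = A.map (Int.cast : ℤ → ℝ) := by
    ext i j; simp [A]
  refine ⟨A * M * B, ?_⟩
  have hhm : (h : Matrix (Fin n) (Fin n) ℝ) = A.map (Int.cast : ℤ → ℝ) * (g : Matrix (Fin n) (Fin n) ℝ) := by
    rw [hh, ← hcast]
    rfl
  have hmapmul : ∀ P Q : Matrix (Fin n) (Fin n) ℤ,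
      (P * Q).map (Int.cast : ℤ → ℝ) = P.map (Int.cast : ℤ → ℝ) * Q.map (Int.cast : ℤ → ℝ) := by
    intro P Q
    exact Matrix.map_mul (f := Int.castRingHom ℝ)
  have hBA : B.map (Int.cast : ℤ → ℝ) * A.map (Int.cast : ℤ → ℝ) = 1 := by
    rw [← hmapmul, hAB]
    ext i j
    simp [Matrix.one_apply]
  calc (h : Matrix (Fin n) (Fin n) ℝ) * diagonal T
      = A.map (Int.cast : ℤ → ℝ) * ((g : Matrix (Fin n) (Fin n) ℝ) * diagonal T) := by
        rw [hhm, Matrix.mul_assoc]
    _ = A.map (Int.cast : ℤ → ℝ) * (M.map (Int.cast : ℤ → ℝ) * (g : Matrix (Fin n) (Fin n) ℝ)) := by rw [hM]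
    _ = (A * M * B).map (Int.cast : ℤ → ℝ) * (h : Matrix (Fin n) (Fin n) ℝ) := by
        rw [hmapmul, hmapmul, hhm]
        calc _ = A.map (Int.cast : ℤ → ℝ) * M.map (Int.cast : ℤ → ℝ) * (1 : Matrix (Fin n) (Fin n) ℝ) * (g : Matrix (Fin n) (Fin n) ℝ) := by
              simp [Matrix.mul_assoc]
          _ = _ := by
              rw [← hBA]
              simp only [Matrix.mul_assoc]

/-- The image of `ZG T` in `X_n`. -/
def ZX (T : Fin n → ℝ) : Set (XSpace n) := XSpace.mk '' ZG T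

lemma mk_preimage_ZX (T : Fin n → ℝ) : XSpace.mk ⁻¹' ZX T = ZG T := by
  ext h
  constructor
  · rintro ⟨g, hg, hgh⟩
    exact ZG_left_invariant T hg (mk_eq_mk_iff.1 hgh)
  · intro hh
    exact ⟨h, hh, rfl⟩

lemma isClosed_ZX (T : Fin n → ℝ) : IsClosed (ZX T) := by
  rw [← isOpenQuotientMap_mk.isQuotientMap.isClosed_preimage, mk_preimage_ZX]
  exact isClosed_ZG T

/-- A transvection whose conjugate of `T` has a half integer entry. -/
lemma exists_not_mem_ZG (T : Fin n → ℝ) {i j : Fin n} (hij : T i ≠ T j) :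
    ∃ g, g ∉ ZG T := by
  have hne : i ≠ j := fun h => hij (by rw [h])
  have hd : T j - T i ≠ 0 := sub_ne_zero.2 (Ne.symm hij)
  let c : ℝ := 1 / (2 * (T j - T i))
  refine ⟨⟨transvection i j c, det_transvection_of_ne i j hne c⟩, ?_⟩
  rintro ⟨M, hM⟩
  simp only at hM
  have hii := congrFun (congrFun hM i) i
  have hij' := congrFun (congrFun hM i) j
  simp only [Matrix.mul_diagonal, transvection, Matrix.mul_add, Matrix.mul_one, Matrix.add_apply,
    Matrix.one_apply_eq, Matrix.one_apply_ne hne,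
    Matrix.mul_single_apply_same] at hii hij'
  rw [Matrix.mul_single_apply_of_ne _ _ _ _ _ hne, Matrix.single_apply_of_col_ne i i hne.symm c] at hii
  rw [Matrix.single_apply_same] at hij'
  simp only [add_zero, one_mul, Matrix.map_apply, zero_add] at hii hij'
  -- hii : T i = M i i, hij' : c * T j = M i j + M i i * c
  have hMij : ((M i j : ℤ) : ℝ) = 1 / 2 := by
    have : ((M i j : ℤ) : ℝ) = c * (T j - T i) := by
      rw [← hii] at hij'
      rw [mul_sub]
      linarith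
    rw [this]
    simp only [c]
    field_simp
  have h2 : (2 : ℝ) * ((M i j : ℤ) : ℝ) = 1 := by rw [hMij]; norm_num
  have h3 : (2 : ℤ) * M i j = 1 := by exact_mod_cast h2
  omega

/-- Every packet representative has its row lattice stable under `σ(α)` for `α ∈ O`. -/
lemma packetRep_mem_ZG {K : Type} [Field K] (O : Subring K) (σ : Fin n ≃ (K →+* ℝ))
    (T : Fin n → ℝ) (hT : ∃ α ∈ O, ∀ j, σ j α = T j) {g : SpecialLinearGroup (Fin n) ℝ}
    (hg : IsPacketRep O σ g) : g ∈ ZG T := by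
  obtain ⟨α, hαO, hα⟩ := hT
  obtain ⟨I, hI, c, w, u, hc, hw, hu, hL⟩ := hg
  have hrow : ∀ i, ∃ v : Fin n → ℤ, ∀ j, (g : Matrix (Fin n) (Fin n) ℝ) i j * T j =
      ∑ k, (v k : ℝ) * (g : Matrix (Fin n) (Fin n) ℝ) k j := by
    intro i
    have hmem : (g : Matrix (Fin n) (Fin n) ℝ) i ∈ (rowLattice g : Set (Fin n → ℝ)) :=
      AddSubgroup.subset_closure ⟨i, rfl⟩
    rw [hL] at hmem
    obtain ⟨x, hxI, hx⟩ := hmem
    have hαx : α * x ∈ I := (hI.proper α).2 hαO x hxI
    have hnew : (fun j => (g : Matrix (Fin n) (Fin n) ℝ) i j * T j) ∈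
        (rowLattice g : Set (Fin n → ℝ)) := by
      rw [hL]
      refine ⟨α * x, hαx, fun j => ?_⟩
      simp only [hx j, map_mul, hα j]
      ring
    obtain ⟨v, hv⟩ := (AddSubgroup.mem_closure_range_iff_of_fintype).1 hnew
    refine ⟨v, fun j => ?_⟩
    have := congrFun hv j
    simp only [Finset.sum_apply, Pi.smul_apply] at this
    simp only [zsmul_eq_mul] at this
    exact this
  choose v hv using hrow
  refine ⟨Matrix.of v, ?_⟩
  ext i j
  rw [Matrix.mul_diagonal, Matrix.mul_apply]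
  exact hv i j

/-- The test function attached to a non-scalar diagonal matrix `T`. -/
theorem exists_test_function (T : Fin n → ℝ) (hT : ∃ i j, T i ≠ T j) :
    ∃ f : XSpace n → ℝ, Continuous f ∧ HasCompactSupport f ∧ (∀ x, 0 ≤ f x) ∧
      (∃ x, f x ≠ 0) ∧ (∀ x ∈ ZX T, f x = 0) ∧
      ∀ m : Measure (XSpace n), IsProbabilityMeasure m → (∀ h, m.map (XSpace.act h) = m) →
        0 < ∫ x, f x ∂m := by
  obtain ⟨i, j, hij⟩ := hT
  obtain ⟨g₀, hg₀⟩ := exists_not_mem_ZG T hij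
  have hx₀ : XSpace.mk g₀ ∉ ZX T := by
    intro h
    have : g₀ ∈ XSpace.mk ⁻¹' ZX T := h
    rw [mk_preimage_ZX] at this
    exact hg₀ this
  obtain ⟨f, hf1, hf0, hfc, hfI⟩ := exists_continuous_one_zero_of_isCompact
    (isCompact_singleton (x := XSpace.mk g₀)) (isClosed_ZX T)
    (Set.disjoint_singleton_left.2 hx₀)
  have hpos : ∀ x, 0 ≤ f x := fun x => (hfI x).1
  have hone : f (XSpace.mk g₀) = 1 := by simpa using hf1 (Set.mem_singleton _)
  refine ⟨f, f.continuous, hfc, hpos, ⟨XSpace.mk g₀, by rw [hone]; exact one_ne_zero⟩,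
    fun x hx => hf0 hx, ?_⟩
  intro m hm hinv
  have hint : Integrable (fun x => f x) m := f.continuous.integrable_of_hasCompactSupport hfc
  have hsupp : Function.support (fun x => f x) = {x | f x ≠ 0} := rfl
  refine (integral_pos_iff_support_of_nonneg hpos hint).2 ?_
  refine measure_pos_of_isOpen m hinv ?_ ⟨XSpace.mk g₀, ?_⟩
  · rw [hsupp]
    exact isOpen_ne_fun f.continuous continuous_const
  · simp [Function.mem_support, hone]

/-- The packets of any order containing an element `α` with `σ(α) = T` lie in `ZX T`. -/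
lemma packetSet_subset_ZX {K : Type} [Field K] (O : Subring K) (σ : Fin n ≃ (K →+* ℝ))
    (T : Fin n → ℝ) (hT : ∃ α ∈ O, ∀ j, σ j α = T j) : packetSet O σ ⊆ ZX T := by
  rintro x ⟨g, hg, rfl⟩
  exact ⟨g, packetRep_mem_ZG O σ T hT hg, rfl⟩

/-- If `f` vanishes on the set carrying the probability measures `μ i`, and has positive integral
against `m`, then the integrals against `μ i` do not tend to the integral against `m`. -/
lemma not_tendsto_of_vanishing (f : XSpace n → ℝ) (m : Measure (XSpace n))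
    (hm : 0 < ∫ x, f x ∂m) (μ : ℕ → Measure (XSpace n)) (S : ℕ → Set (XSpace n))
    (hS : ∀ i, μ i (S i)ᶜ = 0) (hf : ∀ i, ∀ x ∈ S i, f x = 0) :
    ¬ Tendsto (fun i => ∫ x, f x ∂(μ i)) atTop (𝓝 (∫ x, f x ∂m)) := by
  intro h
  have h0 : ∀ i, ∫ x, f x ∂(μ i) = 0 := by
    intro i
    refine integral_eq_zero_of_ae ?_
    have : ∀ᵐ x ∂(μ i), x ∈ S i := by
      rw [ae_iff]
      exact hS i
    filter_upwards [this] with x hx using hf i x hx
  simp only [h0] at h
  have := tendsto_nhds_unique h tendsto_const_nhds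
  exact hm.ne' this

end Vale.Agent.Lib.P007
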