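import Mathlib

open Polynomial

namespace Vale.Agent.Lib.P007

/-- The Lucas-Dickson polynomials `V_m(x) = M^m D_m(x/M)` with parameter `Q = M^2`;
on `x = 2 M cos t` they take the value `2 M^m cos (m t)`. -/
noncomputable def VP (Q : ℤ) : ℕ → ℤ[X]
  | 0 => 2
  | 1 => X
  | (m + 2) => X * VP Q (m + 1) - C Q * VP Q m

lemma VP_succ_succ (Q : ℤ) (m : ℕ) : VP Q (m + 2) = X * VP Q (m + 1) - C Q * VP Q m := rfl

/-- `V_m = X^m + Q W_m` for `m ≥ 1`. -/
lemma VP_form (Q : ℤ) (m : ℕ) : ∃ W : ℤ[X], VP Q (m + 1) = X ^ (m + 1) + C Q * W := by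
  induction m using Nat.strong_induction_on with
  | _ m ih =>
    match m with
    | 0 => exact ⟨0, by simp [VP]⟩
    | 1 =>
      refine ⟨-2, ?_⟩
      simp only [VP]
      ring
    | (k + 2) =>
      obtain ⟨W, hW⟩ := ih (k + 1) (by omega)
      refine ⟨X * W - VP Q (k + 1), ?_⟩
      rw [show k + 2 + 1 = (k + 1) + 2 by ring, VP_succ_succ, hW]
      ring

lemma VP_natDegree_monic (Q : ℤ) (m : ℕ) :
    (VP Q (m + 1)).Monic ∧ (VP Q (m + 1)).natDegree = m + 1 := by
  induction m using Nat.strong_induction_on with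
  | _ m ih =>
    match m with
    | 0 => exact ⟨by simp [VP], by simp [VP]⟩
    | 1 =>
      have h : VP Q 2 = X ^ 2 + C (-(2 * Q)) := by
        simp only [VP, map_neg, map_mul]
        have : (2 : ℤ[X]) = C 2 := rfl
        rw [this]
        ring
      rw [show 1 + 1 = 2 by rfl, h]
      exact ⟨monic_X_pow_add_C _ (by norm_num), natDegree_X_pow_add_C⟩
    | (k + 2) =>
      obtain ⟨hm, hd⟩ := ih (k + 1) (by omega)
      obtain ⟨hm', hd'⟩ := ih k (by omega)
      have hP : (X * VP Q (k + 1 + 1)).natDegree = k + 3 := by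
        rw [natDegree_X_mul hm.ne_zero, hd]
      have hR : (C Q * VP Q (k + 1)).natDegree ≤ k + 1 :=
        (natDegree_C_mul_le _ _).trans hd'.le
      have hlt : (C Q * VP Q (k + 1)).natDegree < (X * VP Q (k + 1 + 1)).natDegree := by omega
      rw [show k + 2 + 1 = (k + 1) + 2 by ring, VP_succ_succ]
      refine ⟨(monic_X.mul hm).sub_of_left (degree_lt_degree hlt), ?_⟩
      rw [natDegree_sub_eq_left_of_natDegree_lt hlt, hP]

/-- The evaluation at `x = 2 M cos t`. -/
lemma VP_eval_cos (M : ℤ) (t : ℝ) (m : ℕ) :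
    aeval (2 * (M : ℝ) * Real.cos t) (VP (M ^ 2) m) = 2 * (M : ℝ) ^ m * Real.cos (m * t) := by
  induction m using Nat.strong_induction_on with
  | _ m ih =>
    match m with
    | 0 =>
      have h2 : VP (M ^ 2) 0 = C 2 := rfl
      rw [h2, aeval_C]
      simp
    | 1 => simp [VP]
    | (k + 2) =>
      rw [VP_succ_succ]
      simp only [map_sub, map_mul, aeval_X, aeval_C]
      rw [ih (k + 1) (by omega), ih k (by omega)]
      have h1 : Real.cos (((k + 2 : ℕ) : ℝ) * t) + Real.cos ((k : ℝ) * t) =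
          2 * Real.cos (((k + 1 : ℕ) : ℝ) * t) * Real.cos t := by
        have := Real.cos_add_cos (((k + 2 : ℕ) : ℝ) * t) ((k : ℝ) * t)
        rw [this]
        push_cast
        congr 2 <;> ring_nf
      have h2 : (algebraMap ℤ ℝ) (M ^ 2) = (M : ℝ) ^ 2 := by simp
      rw [h2]
      have h3 : Real.cos (((k + 2 : ℕ) : ℝ) * t) = 2 * Real.cos (((k + 1 : ℕ) : ℝ) * t) * Real.cos t
          - Real.cos ((k : ℝ) * t) := by linarith
      rw [h3]
      ring

end Vale.Agent.Lib.P007
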