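import Vale.Agent.Lib.P007.Data

open Polynomial

namespace Vale.Agent.Lib.P007

/-- Distinctness of the values `cos ((ψ + 2 π k) / b)`, `0 ≤ k < b`, for `0 < ψ < π`. -/
lemma cos_inj_aux (b : ℕ) (hb : 0 < b) (ψ : ℝ) (h0 : 0 < ψ) (h1 : ψ < Real.pi) (k k' : ℕ)
    (hk : k < b) (hk' : k' < b)
    (h : Real.cos ((ψ + 2 * Real.pi * k) / b) = Real.cos ((ψ + 2 * Real.pi * k') / b)) : k = k' := by
  have hbpos : (0 : ℝ) < b := by exact_mod_cast hb
  have hpi := Real.pi_pos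
  rw [eq_comm, Real.cos_eq_cos_iff] at h
  obtain ⟨m, hm | hm⟩ := h
  · -- `ψ + 2 π k = 2 m π b + ψ + 2 π k'`
    have h2 : ((k : ℝ) - k') = m * b := by
      have h3 : (ψ + 2 * Real.pi * k) = (2 * m * Real.pi + (ψ + 2 * Real.pi * k') / b) * b := by
        rw [← hm]
        field_simp
      have h4 : (ψ + 2 * Real.pi * k) = 2 * Real.pi * (m * b) + (ψ + 2 * Real.pi * k') := by
        rw [h3]
        field_simp
      have h5 : 2 * Real.pi * ((k : ℝ) - k') = 2 * Real.pi * (m * b) := by linarith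
      exact mul_left_cancel₀ (by positivity) h5
    have h3 : ((k : ℤ) - k') = m * b := by exact_mod_cast h2
    have h4 : (b : ℤ) ∣ ((k : ℤ) - k') := ⟨m, by rw [h3]; ring⟩
    have h5 : ((k : ℤ) - k') = 0 := by
      apply Int.eq_zero_of_abs_lt_dvd h4
      rw [abs_lt]
      constructor <;> omega
    omega
  · -- `ψ + 2 π k = 2 m π b - ψ - 2 π k'`, hence `ψ` is a multiple of `π`
    have h3 : (ψ + 2 * Real.pi * k) = (2 * m * Real.pi - (ψ + 2 * Real.pi * k') / b) * b := by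
      rw [← hm]
      field_simp
    have h4 : (ψ + 2 * Real.pi * k) = 2 * Real.pi * (m * b) - (ψ + 2 * Real.pi * k') := by
      rw [h3]
      field_simp
    have h5 : ψ = Real.pi * ((m : ℝ) * b - k - k') := by linarith
    set z : ℤ := m * b - k - k' with hz
    have h6 : ψ = Real.pi * (z : ℝ) := by rw [h5, hz]; push_cast; ring
    have h7 : (0 : ℝ) < z := by
      by_contra hcon
      push Not at hcon
      have : Real.pi * (z : ℝ) ≤ 0 := mul_nonpos_of_nonneg_of_nonpos hpi.le hcon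
      linarith
    have h8 : (z : ℝ) < 1 := by
      by_contra hcon
      push Not at hcon
      have : Real.pi * 1 ≤ Real.pi * (z : ℝ) := by gcongr
      linarith
    have h9 : (0 : ℤ) < z := by exact_mod_cast h7
    have h10 : z < 1 := by exact_mod_cast h8
    omega

/-- The angle `arccos (2^(-a))`. -/
noncomputable def phiA (a : ℕ) : ℝ := Real.arccos (1 / 2 ^ a)

lemma phiA_pos (a : ℕ) (ha : 0 < a) : 0 < phiA a := by
  rw [phiA, Real.arccos_pos]
  rw [div_lt_one (by positivity)]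
  exact one_lt_pow₀ (by norm_num) ha.ne'

lemma phiA_lt (a : ℕ) : phiA a < Real.pi := by
  refine lt_of_le_of_ne (Real.arccos_le_pi _) ?_
  rw [phiA, Ne, Real.arccos_eq_pi]
  have : (0 : ℝ) < 1 / 2 ^ a := by positivity
  linarith

lemma cos_phiA (a : ℕ) : Real.cos (phiA a) = 1 / 2 ^ a := by
  rw [phiA, Real.cos_arccos]
  · have : (0 : ℝ) < 1 / 2 ^ a := by positivity
    linarith
  · rw [div_le_one (by positivity)]
    exact one_le_pow₀ (by norm_num)

/-- The roots of `g_a`. -/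
noncomputable def yL (a : ℕ) (l : ℕ) : ℝ := 2 * ((2 : ℤ) : ℝ) * Real.cos ((phiA a + 2 * Real.pi * l) / a)

lemma cos_two_pi_mul_nat (x : ℝ) (l : ℕ) : Real.cos (x + 2 * Real.pi * l) = Real.cos x := by
  have := Real.cos_add_nat_mul_two_pi x l
  rw [← this]
  ring_nf

lemma yL_root (a : ℕ) (ha : 0 < a) (l : ℕ) : aeval (yL a l) (gP a) = 0 := by
  have hane : (a : ℝ) ≠ 0 := by exact_mod_cast ha.ne'
  rw [gP, map_sub, yL, VP_eval_cos]
  rw [show (a : ℝ) * ((phiA a + 2 * Real.pi * l) / a) = phiA a + 2 * Real.pi * l by field_simp]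
  rw [cos_two_pi_mul_nat, cos_phiA]
  have h2 : aeval (2 * ((2 : ℤ) : ℝ) * Real.cos ((phiA a + 2 * Real.pi * l) / a)) (2 : ℤ[X]) = 2 := by
    have : (2 : ℤ[X]) = C 2 := rfl
    rw [this, aeval_C]
    simp
  rw [h2]
  push_cast
  field_simp
  ring

lemma yL_inj (a : ℕ) (ha : 0 < a) (l l' : ℕ) (hl : l < a) (hl' : l' < a) (h : yL a l = yL a l') :
    l = l' := by
  have h1 : Real.cos ((phiA a + 2 * Real.pi * l) / a) = Real.cos ((phiA a + 2 * Real.pi * l') / a) := by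
    rw [yL, yL] at h
    have h2 : (2 * ((2 : ℤ) : ℝ)) ≠ 0 := by norm_num
    exact mul_left_cancel₀ h2 h
  exact cos_inj_aux a ha _ (phiA_pos a ha) (phiA_lt a) l l' hl hl' h1

lemma abs_yL_le (a l : ℕ) : |yL a l| ≤ 4 := by
  rw [yL, abs_mul]
  have h1 := Real.abs_cos_le_one ((phiA a + 2 * Real.pi * l) / a)
  have h2 : |2 * ((2 : ℤ) : ℝ)| = 4 := by norm_num
  rw [h2]
  linarith

/-- The polynomial `h = V_b(X; M^2) + c`. -/
noncomputable def hP (M c : ℤ) (b : ℕ) : ℤ[X] := VP (M ^ 2) b + C c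

/-- The angle `ψ`. -/
noncomputable def psiP (M c : ℤ) (b : ℕ) (y : ℝ) : ℝ := Real.arccos ((y - c) / (2 * (M : ℝ) ^ b))

/-- The real root of `h = y`. -/
noncomputable def xP (M c : ℤ) (b : ℕ) (y : ℝ) (k : ℕ) : ℝ :=
  2 * (M : ℝ) * Real.cos ((psiP M c b y + 2 * Real.pi * k) / b)

section
variable (M c : ℤ) (b : ℕ) (y : ℝ)

lemma abs_ratio_lt (hM : |c| + 4 ≤ M) (hb : 0 < b) (hy : |y| ≤ 4) :
    |(y - c) / (2 * (M : ℝ) ^ b)| < 1 := by
  have hM1 : (1 : ℝ) ≤ (M : ℝ) := by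
    have : (1 : ℤ) ≤ M := by have := abs_nonneg c; omega
    exact_mod_cast this
  have hMpos : (0 : ℝ) < M := by linarith
  have hpow : (M : ℝ) ≤ (M : ℝ) ^ b := le_self_pow₀ hM1 hb.ne'
  have hpos : (0 : ℝ) < 2 * (M : ℝ) ^ b := by positivity
  rw [abs_div, abs_of_pos hpos, div_lt_one hpos]
  have hc : |(c : ℝ)| + 4 ≤ M := by exact_mod_cast hM
  calc |y - c| ≤ |y| + |(c : ℝ)| := abs_sub _ _
    _ ≤ 4 + |(c : ℝ)| := by linarith
    _ ≤ M := by linarith
    _ < 2 * (M : ℝ) ^ b := by linarith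

lemma hP_eval_xP (hM : |c| + 4 ≤ M) (hb : 0 < b) (hy : |y| ≤ 4) (k : ℕ) :
    aeval (xP M c b y k) (hP M c b) = y := by
  have hbne : (b : ℝ) ≠ 0 := by exact_mod_cast hb.ne'
  have hM1 : (1 : ℝ) ≤ (M : ℝ) := by
    have : (1 : ℤ) ≤ M := by have := abs_nonneg c; omega
    exact_mod_cast this
  have hMpos : (0 : ℝ) < M := by linarith
  have hr := abs_lt.1 (abs_ratio_lt M c b y hM hb hy)
  rw [hP, map_add, xP, VP_eval_cos, aeval_C]
  rw [show (b : ℝ) * ((psiP M c b y + 2 * Real.pi * k) / b) = psiP M c b y + 2 * Real.pi * k by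
    field_simp]
  rw [cos_two_pi_mul_nat, psiP, Real.cos_arccos hr.1.le hr.2.le]
  have : (M : ℝ) ^ b ≠ 0 := by positivity
  simp only [eq_intCast]
  field_simp
  ring

lemma psiP_pos (hM : |c| + 4 ≤ M) (hb : 0 < b) (hy : |y| ≤ 4) : 0 < psiP M c b y := by
  have hr := abs_lt.1 (abs_ratio_lt M c b y hM hb hy)
  rw [psiP, Real.arccos_pos]
  exact hr.2

lemma psiP_lt (hM : |c| + 4 ≤ M) (hb : 0 < b) (hy : |y| ≤ 4) : psiP M c b y < Real.pi := by
  have hr := abs_lt.1 (abs_ratio_lt M c b y hM hb hy)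
  unfold psiP
  refine lt_of_le_of_ne (Real.arccos_le_pi _) ?_
  rw [Ne, Real.arccos_eq_pi]
  linarith [hr.1]

lemma xP_inj (hM : |c| + 4 ≤ M) (hb : 0 < b) (hy : |y| ≤ 4) (k k' : ℕ) (hk : k < b) (hk' : k' < b)
    (h : xP M c b y k = xP M c b y k') : k = k' := by
  have hM1 : (1 : ℝ) ≤ (M : ℝ) := by
    have : (1 : ℤ) ≤ M := by have := abs_nonneg c; omega
    exact_mod_cast this
  have h2 : 2 * (M : ℝ) ≠ 0 := by positivity
  rw [xP, xP] at h
  exact cos_inj_aux b hb _ (psiP_pos M c b y hM hb hy) (psiP_lt M c b y hM hb hy) k k' hk hk'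
    (mul_left_cancel₀ h2 h)

end

end Vale.Agent.Lib.P007
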