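import Vale.Agent.Lib.P007.Defs

open Matrix MeasureTheory Filter Topology

namespace Vale.Agent.Lib.P007

variable {n : ℕ}

lemma isClosed_gammaZ : IsClosed (gammaZ n : Set (SpecialLinearGroup (Fin n) ℝ)) := by
  have h : IsClosedEmbedding (SpecialLinearGroup.map (n := Fin n) (Int.castRingHom ℝ)) :=
    Topology.IsClosedEmbedding.specialLinearGroup_map Int.isClosedEmbedding_coe_real
  simpa [gammaZ] using h.isClosed_range

lemma isOpenQuotientMap_mk :
    IsOpenQuotientMap (XSpace.mk : SpecialLinearGroup (Fin n) ℝ → XSpace n) :=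
  MulAction.isOpenQuotientMap_quotientMk (Γ := gammaZ n) (T := SpecialLinearGroup (Fin n) ℝ)

lemma mk_eq_mk_iff {g h : SpecialLinearGroup (Fin n) ℝ} :
    XSpace.mk g = XSpace.mk h ↔ h * g⁻¹ ∈ gammaZ n := by
  constructor
  · intro h1
    exact QuotientGroup.rightRel_apply.1 (Quotient.exact h1)
  · intro h1
    exact Quotient.sound (QuotientGroup.rightRel_apply.2 h1)

instance : T2Space (XSpace n) := by
  refine (t2Space_iff_of_isOpenQuotientMap isOpenQuotientMap_mk).2 ?_
  have : {q : SpecialLinearGroup (Fin n) ℝ × SpecialLinearGroup (Fin n) ℝ |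
      XSpace.mk q.1 = XSpace.mk q.2} = (fun q => q.2 * q.1⁻¹) ⁻¹' (gammaZ n : Set _) := by
    ext q
    exact mk_eq_mk_iff
  rw [this]
  exact isClosed_gammaZ.preimage (by fun_prop)

instance : LocallyCompactSpace (SpecialLinearGroup (Fin n) ℝ) :=
  haveI : LocallyCompactSpace (Matrix (Fin n) (Fin n) ℝ) :=
    inferInstanceAs (LocallyCompactSpace (Fin n → Fin n → ℝ))
  (SpecialLinearGroup.isClosedEmbedding_val (n := Fin n) (R := ℝ)).locallyCompactSpace

instance : LocallyCompactSpace (XSpace n) := isOpenQuotientMap_mk.locallyCompactSpace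

instance : SecondCountableTopology (SpecialLinearGroup (Fin n) ℝ) :=
  haveI : SecondCountableTopology (Matrix (Fin n) (Fin n) ℝ) :=
    inferInstanceAs (SecondCountableTopology (Fin n → Fin n → ℝ))
  (SpecialLinearGroup.isClosedEmbedding_val (n := Fin n) (R := ℝ)).isEmbedding.secondCountableTopology

instance : SecondCountableTopology (XSpace n) :=
  ContinuousConstSMul.secondCountableTopology (Γ := gammaZ n) (T := SpecialLinearGroup (Fin n) ℝ)

lemma XSpace.act_mk (h g : SpecialLinearGroup (Fin n) ℝ) :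
    XSpace.act h (XSpace.mk g) = XSpace.mk (g * h) := rfl

lemma XSpace.continuous_act (h : SpecialLinearGroup (Fin n) ℝ) :
    Continuous (XSpace.act h : XSpace n → XSpace n) := by
  refine isOpenQuotientMap_mk.isQuotientMap.continuous_iff.2 ?_
  have : (XSpace.act h ∘ XSpace.mk : SpecialLinearGroup (Fin n) ℝ → XSpace n) =
      fun g => XSpace.mk (g * h) := rfl
  rw [this]
  exact isOpenQuotientMap_mk.continuous.comp (by fun_prop)

/-- An invariant probability measure gives positive mass to every nonempty open set. -/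
lemma measure_pos_of_isOpen (m : Measure (XSpace n)) [IsProbabilityMeasure m]
    (hm : ∀ h, m.map (XSpace.act h) = m) {U : Set (XSpace n)} (hU : IsOpen U) (hne : U.Nonempty) :
    0 < m U := by
  obtain ⟨x₀, hx₀⟩ := hne
  obtain ⟨g₀, rfl⟩ := isOpenQuotientMap_mk.surjective x₀
  -- translates of U cover X
  have hcov : (⋃ h : SpecialLinearGroup (Fin n) ℝ, XSpace.act h ⁻¹' U) = Set.univ := by
    refine Set.eq_univ_of_forall fun x => ?_
    obtain ⟨g, rfl⟩ := isOpenQuotientMap_mk.surjective x
    refine Set.mem_iUnion.2 ⟨g⁻¹ * g₀, ?_⟩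
    simp only [Set.mem_preimage, XSpace.act_mk]
    simpa [mul_assoc] using hx₀
  have hopen : ∀ h : SpecialLinearGroup (Fin n) ℝ, IsOpen (XSpace.act h ⁻¹' U) := fun h =>
    hU.preimage (XSpace.continuous_act h)
  obtain ⟨T, hTc, hT⟩ := TopologicalSpace.isOpen_iUnion_countable _ hopen
  by_contra hzero
  have h0 : m U = 0 := by simpa using hzero
  have hmeas : ∀ h : SpecialLinearGroup (Fin n) ℝ, m (XSpace.act h ⁻¹' U) = 0 := by
    intro h
    have := Measure.map_apply (μ := m) (XSpace.continuous_act h).measurable hU.measurableSet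
    rw [hm h] at this
    rw [← this, h0]
  have hall : m (⋃ h ∈ T, XSpace.act h ⁻¹' U) = 0 :=
    (measure_biUnion_null_iff hTc).2 fun h _ => hmeas h
  rw [hT, hcov, measure_univ] at hall
  exact one_ne_zero hall

end Vale.Agent.Lib.P007
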